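import Vale.Agent.Lib.P184.Centralizer

/-!
# P184: undistorted elements with amenable centralizer

Statements frozen by helper10; proof of the first theorem by helper12 (complete).

`ℓ` is a subadditive real function on `G`, `ℓ (g ^ j) ≥ c |j|` for all integers `j`, `c > 0`, and
`m` is a left invariant mean on the bounded real functions on the centralizer `Z` of `g`
(`Z = {z // Commute z g}`; only additivity, the bound `f ≤ B → m f ≤ B` and invariance are used, and only
for bounded functions).  Then there is a real character `φ` of `Z` with `|φ z| ≤ max (ℓ z) (ℓ z⁻¹)` and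
`φ g = c`.

ROUTE.  For `z` commuting with `g` put `P z := ⨅ n : ℤ, (ℓ (z * g ^ n) - c * n)`.
* bounded below: `ℓ (g ^ n) ≤ ℓ z⁻¹ + ℓ (z * g ^ n)`, so `ℓ (z * g ^ n) - c * n ≥ c |n| - c n - ℓ z⁻¹ ≥ - ℓ z⁻¹`.
  Hence `- ℓ z⁻¹ ≤ P z ≤ ℓ z` (`n = 0`).
* `P (z * w) ≤ P z + P w` for `z, w` commuting with `g`  (`z * w * g ^ (n + k) = (z * g ^ n) * (w * g ^ k)`).
* `P (g * w) = P w + c`  (shift of the index, `g * w * g ^ n = w * g ^ (n + 1)`).
* `D z w := P (z * w) - P w` satisfies `- P z⁻¹ ≤ D z w ≤ P z`: bounded in `w`.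
* `φ z := m (fun w => D z w)`;  `D (z * z') w = D z (z' * w) + D z' w`, so additivity and invariance give
  `φ (z * z') = φ z + φ z'`;  `φ z ≤ P z ≤ ℓ z`;  `m 0 = 0`, `m (-f) = - m f`, so `φ z ≥ - P z⁻¹ ≥ - ℓ z⁻¹`;
  `φ g = m (fun _ => c) = c`.
* extend `φ` by `0` outside the centralizer (`if h : Commute z g then .. else 0`).
-/

namespace Vale.Agent.Lib.P184

open scoped BigOperators

theorem exists_hom_of_invariant_mean {G : Type*} [Group G] (ℓ : G → ℝ)
    (hℓ : ∀ a b, ℓ (a * b) ≤ ℓ a + ℓ b) (g : G) (c : ℝ) (hc0 : 0 < c)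
    (hc : ∀ j : ℤ, c * |(j : ℝ)| ≤ ℓ (g ^ j))
    (m : (Subgroup.centralizer {g} → ℝ) → ℝ)
    (hmadd : ∀ f h : Subgroup.centralizer {g} → ℝ, (∃ B, ∀ z, |f z| ≤ B) → (∃ B, ∀ z, |h z| ≤ B) →
      m (fun z => f z + h z) = m f + m h)
    (hmle : ∀ (f : Subgroup.centralizer {g} → ℝ) (B : ℝ), (∃ B', ∀ z, |f z| ≤ B') → (∀ z, f z ≤ B) →
      m f ≤ B)
    (hminv : ∀ (f : Subgroup.centralizer {g} → ℝ) (a : Subgroup.centralizer {g}),
      (∃ B, ∀ z, |f z| ≤ B) → m (fun z => f (a * z)) = m f) :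
    ∃ φ : G → ℝ, (∀ a b, Commute a g → Commute b g → φ (a * b) = φ a + φ b) ∧
      (∀ z, Commute z g → |φ z| ≤ max (ℓ z) (ℓ z⁻¹)) ∧ φ g = c := by
  classical
  -- membership in the centralizer
  have hmem : ∀ z : G, z ∈ Subgroup.centralizer {g} ↔ Commute z g := by
    intro z
    rw [Subgroup.mem_centralizer_iff]
    constructor
    · intro h
      exact (h g (Set.mem_singleton g)).symm
    · intro h x hx
      rw [Set.mem_singleton_iff.mp hx]
      exact h.symm
  -- the function `F z n` and its infimum `P z`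
  set F : G → ℤ → ℝ := fun z n => ℓ (z * g ^ n) - c * (n : ℝ) with hF
  set P : G → ℝ := fun z => ⨅ n : ℤ, F z n with hP
  have hFlow : ∀ z n, - ℓ z⁻¹ ≤ F z n := by
    intro z n
    have h1 : ℓ (g ^ n) ≤ ℓ z⁻¹ + ℓ (z * g ^ n) := by
      have := hℓ z⁻¹ (z * g ^ n)
      rwa [inv_mul_cancel_left] at this
    have h2 := hc n
    have h3 : c * (n : ℝ) ≤ c * |(n : ℝ)| := mul_le_mul_of_nonneg_left (le_abs_self _) hc0.le
    simp only [hF]
    linarith
  have hbdd : ∀ z, BddBelow (Set.range (F z)) := by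
    intro z
    refine ⟨- ℓ z⁻¹, ?_⟩
    rintro _ ⟨n, rfl⟩
    exact hFlow z n
  have hPle : ∀ z n, P z ≤ F z n := fun z n => ciInf_le (hbdd z) n
  have hlePgen : ∀ z (a : ℝ), (∀ n, a ≤ F z n) → a ≤ P z := fun z a h => le_ciInf h
  have hPl : ∀ z, P z ≤ ℓ z := by
    intro z
    have := hPle z 0
    simpa [hF] using this
  have hPlow : ∀ z, - ℓ z⁻¹ ≤ P z := fun z => hlePgen z _ (hFlow z)
  -- subadditivity
  have hPsub : ∀ z w, Commute w g → P (z * w) ≤ P z + P w := by
    intro z w hw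
    have key : ∀ n k, P (z * w) ≤ F z n + F w k := by
      intro n k
      have h1 := hPle (z * w) (n + k)
      have h2 : z * w * g ^ (n + k) = (z * g ^ n) * (w * g ^ k) := by
        have hcomm : w * g ^ n = g ^ n * w := (hw.zpow_right n).eq
        rw [zpow_add]
        calc z * w * (g ^ n * g ^ k) = z * (w * g ^ n) * g ^ k := by simp only [mul_assoc]
          _ = z * (g ^ n * w) * g ^ k := by rw [hcomm]
          _ = (z * g ^ n) * (w * g ^ k) := by simp only [mul_assoc]
      have h3 := hℓ (z * g ^ n) (w * g ^ k)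
      simp only [hF] at h1 ⊢
      rw [h2] at h1
      push_cast at h1
      linarith
    have h1 : ∀ k, P (z * w) - F w k ≤ P z := by
      intro k
      refine hlePgen z _ fun n => ?_
      have := key n k
      linarith
    have h2 : P (z * w) - P z ≤ P w := by
      refine hlePgen w _ fun k => ?_
      have := h1 k
      linarith
    linarith
  -- the shift
  have hFshift : ∀ w, Commute w g → ∀ n : ℤ, F (g * w) n = F w (n + 1) + c := by
    intro w hw n
    have h2 : g * w * g ^ n = w * g ^ (n + 1) := by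
      rw [← hw.eq, mul_assoc, zpow_add, zpow_one]
      congr 1
      exact ((Commute.refl g).zpow_right n).eq
    simp only [hF]
    rw [h2]
    push_cast
    ring
  have hPshift : ∀ w, Commute w g → P (g * w) = P w + c := by
    intro w hw
    apply le_antisymm
    · have : P (g * w) - c ≤ P w := by
        refine hlePgen w _ fun n => ?_
        have h1 := hPle (g * w) (n - 1)
        rw [hFshift w hw, sub_add_cancel] at h1
        linarith
      linarith
    · refine hlePgen (g * w) _ fun n => ?_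
      rw [hFshift w hw]
      have := hPle w (n + 1)
      linarith
  -- the cocycle
  set D : Subgroup.centralizer {g} → Subgroup.centralizer {g} → ℝ :=
    fun z w => P ((z : G) * (w : G)) - P (w : G) with hD
  have hcm : ∀ z : Subgroup.centralizer {g}, Commute (z : G) g := fun z => (hmem _).1 z.2
  have hDle : ∀ z w : Subgroup.centralizer {g}, D z w ≤ P (z : G) := by
    intro z w
    have := hPsub (z : G) (w : G) (hcm w)
    simp only [hD]
    linarith
  have hDge : ∀ z w : Subgroup.centralizer {g}, - P ((z : G)⁻¹) ≤ D z w := by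
    intro z w
    have := hPsub ((z : G)⁻¹) ((z : G) * (w : G)) ((hcm z).mul_left (hcm w))
    rw [inv_mul_cancel_left] at this
    simp only [hD]
    linarith
  have hDbdd : ∀ z, ∃ B, ∀ w, |D z w| ≤ B := by
    intro z
    refine ⟨max (P (z : G)) (P ((z : G)⁻¹)), fun w => ?_⟩
    rw [abs_le]
    constructor
    · have := hDge z w
      have h2 := le_max_right (P (z : G)) (P ((z : G)⁻¹))
      linarith
    · exact (hDle z w).trans (le_max_left _ _)
  -- elementary properties of the mean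
  have hm0 : m (fun _ => (0 : ℝ)) = 0 := by
    have := hmadd (fun _ => (0 : ℝ)) (fun _ => (0 : ℝ)) ⟨0, fun _ => by simp⟩ ⟨0, fun _ => by simp⟩
    simp only [add_zero] at this
    linarith
  have hmneg : ∀ f : Subgroup.centralizer {g} → ℝ, (∃ B, ∀ z, |f z| ≤ B) →
      m (fun z => - f z) = - m f := by
    intro f hf
    obtain ⟨B, hB⟩ := hf
    have := hmadd f (fun z => - f z) ⟨B, hB⟩ ⟨B, fun z => by rw [abs_neg]; exact hB z⟩
    simp only [add_neg_cancel] at this
    rw [hm0] at this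
    linarith
  have hmconst : ∀ a : ℝ, m (fun _ => a) = a := by
    intro a
    apply le_antisymm
    · exact hmle _ a ⟨|a|, fun _ => le_rfl⟩ fun _ => le_rfl
    · have h1 := hmle (fun _ => - a) (- a) ⟨|a|, fun _ => by rw [abs_neg]⟩ fun _ => le_rfl
      have h2 := hmneg (fun _ => a) ⟨|a|, fun _ => le_rfl⟩
      rw [h2] at h1
      linarith
  -- the character on the centralizer
  set ψ : Subgroup.centralizer {g} → ℝ := fun z => m (fun w => D z w) with hψ
  have hψadd : ∀ z z', ψ (z * z') = ψ z + ψ z' := by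
    intro z z'
    have h1 : (fun w => D (z * z') w) = fun w => (fun w => D z (z' * w)) w + (fun w => D z' w) w := by
      funext w
      simp only [hD, Subgroup.coe_mul, mul_assoc]
      ring
    have hb1 : ∃ B, ∀ w, |(fun w => D z (z' * w)) w| ≤ B := by
      obtain ⟨B, hB⟩ := hDbdd z
      exact ⟨B, fun w => hB (z' * w)⟩
    have h2 := hmadd (fun w => D z (z' * w)) (fun w => D z' w) hb1 (hDbdd z')
    have h3 := hminv (fun w => D z w) z' (hDbdd z)
    simp only [hψ]
    rw [h1, h2, h3]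
  have hψle : ∀ z : Subgroup.centralizer {g}, ψ z ≤ P (z : G) := fun z => hmle _ _ (hDbdd z) (hDle z)
  have hψge : ∀ z : Subgroup.centralizer {g}, - P ((z : G)⁻¹) ≤ ψ z := by
    intro z
    obtain ⟨B, hB⟩ := hDbdd z
    have h1 := hmle (fun w => - D z w) (P ((z : G)⁻¹)) ⟨B, fun w => by rw [abs_neg]; exact hB w⟩
      (fun w => by have := hDge z w; linarith)
    rw [hmneg _ ⟨B, hB⟩] at h1
    simp only [hψ]
    linarith
  have hgmem : g ∈ Subgroup.centralizer {g} := (hmem g).2 (Commute.refl g)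
  have hψg : ψ ⟨g, hgmem⟩ = c := by
    have h1 : (fun w => D ⟨g, hgmem⟩ w) = fun _ => c := by
      funext w
      simp only [hD]
      rw [hPshift (w : G) (hcm w)]
      ring
    simp only [hψ]
    rw [h1, hmconst]
  refine ⟨fun z => if h : z ∈ Subgroup.centralizer {g} then ψ ⟨z, h⟩ else 0, ?_, ?_, ?_⟩
  · intro a b ha hb
    have ha' := (hmem a).2 ha
    have hb' := (hmem b).2 hb
    have hab' : a * b ∈ Subgroup.centralizer {g} := mul_mem ha' hb'
    simp only [dif_pos ha', dif_pos hb', dif_pos hab']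
    exact hψadd ⟨a, ha'⟩ ⟨b, hb'⟩
  · intro z hz
    have hz' := (hmem z).2 hz
    simp only [dif_pos hz']
    rw [abs_le]
    constructor
    · have h1 := hψge ⟨z, hz'⟩
      have h2 := hPl z⁻¹
      have h3 := le_max_right (ℓ z) (ℓ z⁻¹)
      simp only at h1
      linarith
    · exact ((hψle ⟨z, hz'⟩).trans (hPl z)).trans (le_max_left _ _)
  · simp only [dif_pos hgmem]
    exact hψg

theorem trace_vanish_of_amenable_centralizer {G : Type*} [Group G] {q : ℕ}
    (e : Matrix (Fin q) (Fin q) (G → ℂ))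
    (hsum : ∀ i j, Summable fun g => ‖e i j g‖)
    (hidem : ∀ i j g, ∑ k, ∑' h, e i k h * e k j (h⁻¹ * g) = e i j g)
    (ℓ : G → ℝ) (hℓ : ∀ a b, ℓ (a * b) ≤ ℓ a + ℓ b) (g : G) (c : ℝ) (hc0 : 0 < c)
    (hc : ∀ j : ℤ, c * |(j : ℝ)| ≤ ℓ (g ^ j))
    (m : (Subgroup.centralizer {g} → ℝ) → ℝ)
    (hmadd : ∀ f h : Subgroup.centralizer {g} → ℝ, (∃ B, ∀ z, |f z| ≤ B) → (∃ B, ∀ z, |h z| ≤ B) →
      m (fun z => f z + h z) = m f + m h)
    (hmle : ∀ (f : Subgroup.centralizer {g} → ℝ) (B : ℝ), (∃ B', ∀ z, |f z| ≤ B') → (∀ z, f z ≤ B) →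
      m f ≤ B)
    (hminv : ∀ (f : Subgroup.centralizer {g} → ℝ) (a : Subgroup.centralizer {g}),
      (∃ B, ∀ z, |f z| ≤ B) → m (fun z => f (a * z)) = m f) :
    ∑' x : (ConjClasses.mk g).carrier, ∑ i, e i i x = 0 := by
  obtain ⟨φ, hadd, hle, hφg⟩ := exists_hom_of_invariant_mean ℓ hℓ g c hc0 hc m hmadd hmle hminv
  refine trace_vanish_of_centralizer_hom e hsum hidem (fun z => max (ℓ z) (ℓ z⁻¹)) ?_ g φ hadd hle
    (by rw [hφg]; exact hc0.ne')
  intro a b
  refine max_le ?_ ?_
  · exact (hℓ a b).trans (add_le_add (le_max_left _ _) (le_max_left _ _))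
  · rw [mul_inv_rev]
    exact (hℓ b⁻¹ a⁻¹).trans (by
      rw [add_comm]; exact add_le_add (le_max_right _ _) (le_max_right _ _))

end Vale.Agent.Lib.P184
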