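import Vale.Agent.Lib.P184.Geo.Trace
import Vale.Agent.Lib.P184.Geo.Bolic
import Vale.Agent.Lib.P184.Geo.Classes

/-!
# P184: the `ℓ¹`-Bass conjecture for isometric actions on CAT(0) and strongly bolic spaces

`e` is a `q × q` matrix with entries in `ℓ¹(G)` (absolutely summable functions `G → ℂ`) which is
idempotent for the convolution product; `G` acts by isometries on a metric space `X`.

1. If `X` satisfies condition (B1) of strong bolicity and the orbit `g ^ n • o` escapes at linear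
   speed, then `τ_C(e) = 0` for the conjugacy class `C` of `g`.
2. The same if `X` satisfies the CN inequality of Bruhat and Tits (`X` is a CAT(0) space).
3. If `X` is a proper metric space with the CN inequality and the action is metrically proper and
   cobounded, then there is a finite set `F` of conjugacy classes of elements of finite order
   (not depending on `e`) such that `τ_C(e) = 0` for all `C ∉ F`.
-/

namespace Vale.Agent.Lib.P184.CatZero

open scoped BigOperators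
open Vale.Agent.Lib.P184.Geo

theorem catzero_groups {G : Type*} [Group G] {q : ℕ} (e : Matrix (Fin q) (Fin q) (G → ℂ))
    (hsum : ∀ i j, Summable fun g => ‖e i j g‖)
    (hidem : ∀ i j g, ∑ k, ∑' h, e i k h * e k j (h⁻¹ * g) = e i j g)
    {X : Type*} [MetricSpace X] [MulAction G X]
    (hiso : ∀ (g : G) (x y : X), dist (g • x) (g • y) = dist x y) :
    ((∀ r η : ℝ, 0 < η → ∃ R : ℝ, ∀ x₁ x₂ y₁ y₂ : X, dist x₁ x₂ ≤ r → dist y₁ y₂ ≤ r →
        R ≤ dist x₁ y₁ → dist x₁ y₂ + dist x₂ y₁ ≤ dist x₁ y₁ + dist x₂ y₂ + η) →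
      ∀ (g : G) (o : X) (c : ℝ), 0 < c → (∀ n : ℕ, c * n ≤ dist o (g ^ n • o)) →
        ∑' x : (ConjClasses.mk g).carrier, ∑ i, e i i x = 0) ∧
    ((∀ x y : X, ∃ m, ∀ z, dist z m ^ 2 ≤ (dist z x ^ 2 + dist z y ^ 2) / 2 - dist x y ^ 2 / 4) →
      ∀ (g : G) (o : X) (c : ℝ), 0 < c → (∀ n : ℕ, c * n ≤ dist o (g ^ n • o)) →
        ∑' x : (ConjClasses.mk g).carrier, ∑ i, e i i x = 0) ∧
    ((∀ x y : X, ∃ m, ∀ z, dist z m ^ 2 ≤ (dist z x ^ 2 + dist z y ^ 2) / 2 - dist x y ^ 2 / 4) →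
      ProperSpace X →
      (∀ (o : X) (R : ℝ), {g : G | dist (g • o) o ≤ R}.Finite) →
      (∃ (o : X) (R : ℝ), ∀ y : X, ∃ g : G, dist (g • o) y ≤ R) →
      ∃ F : Finset (ConjClasses G), (∀ C ∈ F, ∀ x ∈ C.carrier, IsOfFinOrder x) ∧
        ∀ C ∉ F, ∑' x : C.carrier, ∑ i, e i i x = 0) := by
  refine ⟨fun hB g o c hc0 hc => trace_vanish_of_b1 e hsum hidem hiso hB g o c hc0 hc,
    fun hCN g o c hc0 hc => trace_vanish_of_b1 e hsum hidem hiso (b1_of_cn hCN) g o c hc0 hc,
    ?_⟩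
  intro hCN hX hproper ⟨o, R, hcob⟩
  have hfin := finite_finOrder_classes hiso hCN hproper o R hcob
  refine ⟨hfin.toFinset, ?_, ?_⟩
  · intro C hC x hx
    rw [Set.Finite.mem_toFinset] at hC
    obtain ⟨x', hx', hfo⟩ := hC
    rw [ConjClasses.mem_carrier_iff_mk_eq] at hx hx'
    have hconj : IsConj x' x := by
      rw [← ConjClasses.mk_eq_mk_iff_isConj, hx, hx']
    obtain ⟨w, hw⟩ := isConj_iff.1 hconj
    rw [← hw]
    obtain ⟨n, hn, hpow⟩ := isOfFinOrder_iff_pow_eq_one.1 hfo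
    exact isOfFinOrder_iff_pow_eq_one.2 ⟨n, hn, by rw [conj_pow, hpow]; group⟩
  · intro C hC
    rw [Set.Finite.mem_toFinset] at hC
    obtain ⟨g, rfl⟩ := ConjClasses.exists_rep C
    have hg : ¬ IsOfFinOrder g := fun h => hC ⟨g, ConjClasses.mem_carrier_mk, h⟩
    obtain ⟨p, c, hc0, hc⟩ := escape_of_not_finOrder hiso hCN hproper o R hcob g hg
    exact trace_vanish_of_b1 e hsum hidem hiso (b1_of_cn hCN) g p c hc0 hc

end Vale.Agent.Lib.P184.CatZero
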