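import Mathlib

/-!
# Module H1: the canonical real character of a centralizer that is virtually generated by `g`

FROZEN STATEMENT `exists_hom_of_finite_index`.  Route.  `Z = Subgroup.centralizer {g}` (a group),
`γ : Z` the element `g`.  `Subgroup.zpowers γ ≤ Subgroup.center Z` and it has finite index in `Z`, so
`Subgroup.center Z` has finite index `n` in `Z`; `MonoidHom.transferCenterPow Z : Z →* center Z` is the
homomorphism `z ↦ z ^ n` (`MonoidHom.transferCenterPow_apply`).  In the commutative group
`A = center Z` the subgroup `zpowers γ` has finite index `m`, `a ^ m ∈ zpowers γ`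
(`Subgroup.pow_index_mem`), and `a ↦ a ^ m` is a homomorphism (`powMonoidHom`).  So with `M = n * m`,
`z ↦ z ^ M` is a homomorphism from `Z` to `zpowers γ`.  As `g` has infinite order, `j ↦ g ^ j` is
injective (`injective_zpow_iff_not_isOfFinOrder`), so `z ^ M = g ^ (J z)` defines `J : Z → ℤ`
uniquely and `J (a * b) = J a + J b`; `J γ = M`.  Put `φ z = J z / M` for `z` commuting with `g` and
`φ z = 0` otherwise.
-/

namespace Vale.Agent.Lib.P184

theorem exists_hom_of_finite_index {G : Type*} [Group G] (g : G) (hg : ¬ IsOfFinOrder g)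
    (hfin : (Subgroup.zpowers g).relIndex (Subgroup.centralizer {g}) ≠ 0) :
    ∃ (M : ℕ) (φ : G → ℝ), 0 < M ∧
      (∀ a b, Commute a g → Commute b g → φ (a * b) = φ a + φ b) ∧
      (∀ z, Commute z g → ∃ j : ℤ, z ^ M = g ^ j ∧ φ z = (j : ℝ) / M) ∧ φ g = 1 := by
  classical
  have hmemZ : ∀ z : G, z ∈ Subgroup.centralizer ({g} : Set G) ↔ Commute z g := by
    intro z
    rw [Subgroup.mem_centralizer_iff]
    constructor
    · intro h
      exact (h g (Set.mem_singleton g)).symm
    · intro h x hx
      rw [Set.mem_singleton_iff] at hx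
      subst hx
      exact h.symm
  have hgZ : g ∈ Subgroup.centralizer ({g} : Set G) := (hmemZ g).2 (Commute.refl g)
  obtain ⟨γ, hγ⟩ : ∃ γ : Subgroup.centralizer ({g} : Set G), (γ : G) = g := ⟨⟨g, hgZ⟩, rfl⟩
  have hsub : (Subgroup.zpowers g).subgroupOf (Subgroup.centralizer ({g} : Set G))
      = Subgroup.zpowers γ := by
    ext z
    simp only [Subgroup.mem_subgroupOf, Subgroup.mem_zpowers_iff, Subtype.ext_iff,
      Subgroup.coe_zpow, hγ]
  have hidx : (Subgroup.zpowers γ).index ≠ 0 := by
    rw [← hsub]; exact hfin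
  have hγc : γ ∈ Subgroup.center (Subgroup.centralizer ({g} : Set G)) := by
    rw [Subgroup.mem_center_iff]
    intro z
    apply Subtype.ext
    have := (hmemZ z).1 z.2
    simp only [Subgroup.coe_mul, hγ]
    exact this
  have hcen : Subgroup.zpowers γ ≤ Subgroup.center (Subgroup.centralizer ({g} : Set G)) := by
    rw [Subgroup.zpowers_le]; exact hγc
  have : (Subgroup.zpowers γ).FiniteIndex := ⟨hidx⟩
  have : (Subgroup.center (Subgroup.centralizer ({g} : Set G))).FiniteIndex :=
    Subgroup.finiteIndex_of_le hcen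
  have : (Subgroup.zpowers γ).Normal := by
    constructor
    intro x hx y
    have hxc := hcen hx
    rw [Subgroup.mem_center_iff] at hxc
    have : y * x * y⁻¹ = x := by rw [hxc y, mul_inv_cancel_right]
    rw [this]; exact hx
  set n := (Subgroup.center (Subgroup.centralizer ({g} : Set G))).index with hn
  set k := (Subgroup.zpowers γ).index with hk
  have hn0 : n ≠ 0 := Subgroup.FiniteIndex.index_ne_zero
  have hMpos : 0 < n * k := Nat.pos_of_ne_zero (mul_ne_zero hn0 hidx)
  -- multiplicativity of `z ↦ z ^ (n * k)`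
  have hmul : ∀ a b : Subgroup.centralizer ({g} : Set G),
      (a * b) ^ (n * k) = a ^ (n * k) * b ^ (n * k) := by
    intro a b
    have h1 : (a * b) ^ n = a ^ n * b ^ n := by
      have h0 := congrArg Subtype.val
        (map_mul (MonoidHom.transferCenterPow (Subgroup.centralizer ({g} : Set G))) a b)
      rw [Subgroup.coe_mul, MonoidHom.transferCenterPow_apply, MonoidHom.transferCenterPow_apply,
        MonoidHom.transferCenterPow_apply] at h0
      exact h0
    have hac : a ^ n ∈ Subgroup.center (Subgroup.centralizer ({g} : Set G)) :=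
      Subgroup.pow_index_mem _ a
    have hcomm : Commute (a ^ n) (b ^ n) := by
      rw [Subgroup.mem_center_iff] at hac
      exact (hac (b ^ n)).symm
    rw [pow_mul, pow_mul, pow_mul, h1, hcomm.mul_pow]
  have hmem : ∀ a : Subgroup.centralizer ({g} : Set G), ∃ j : ℤ, a ^ (n * k) = γ ^ j := by
    intro a
    have : (a ^ n) ^ k ∈ Subgroup.zpowers γ := Subgroup.pow_index_mem _ (a ^ n)
    rw [Subgroup.mem_zpowers_iff] at this
    obtain ⟨j, hj⟩ := this
    exact ⟨j, by rw [pow_mul, hj]⟩
  choose J hJ using hmem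
  have hinj : Function.Injective fun j : ℤ => g ^ j :=
    injective_zpow_iff_not_isOfFinOrder.2 hg
  have hinjγ : ∀ i j : ℤ, γ ^ i = γ ^ j → i = j := by
    intro i j h
    apply hinj
    have := congrArg Subtype.val h
    simpa [hγ] using this
  have hJmul : ∀ a b, J (a * b) = J a + J b := by
    intro a b
    apply hinjγ
    rw [← hJ, hmul, hJ a, hJ b, zpow_add]
  have hJγ : J γ = ((n * k : ℕ) : ℤ) := by
    apply hinjγ
    rw [← hJ, zpow_natCast]
  refine ⟨n * k, fun z => if h : Commute z g then
      (J ⟨z, (hmemZ z).2 h⟩ : ℝ) / ((n * k : ℕ) : ℝ) else 0, hMpos, ?_, ?_, ?_⟩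
  · intro a b ha hb
    have hab : Commute (a * b) g := ha.mul_left hb
    simp only [dif_pos ha, dif_pos hb, dif_pos hab]
    have : (⟨a * b, (hmemZ _).2 hab⟩ : Subgroup.centralizer ({g} : Set G))
        = ⟨a, (hmemZ a).2 ha⟩ * ⟨b, (hmemZ b).2 hb⟩ := rfl
    rw [this, hJmul]
    push_cast
    ring
  · intro z hz
    refine ⟨J ⟨z, (hmemZ z).2 hz⟩, ?_, ?_⟩
    · have := congrArg Subtype.val (hJ ⟨z, (hmemZ z).2 hz⟩)
      simpa [hγ] using this
    · simp only [dif_pos hz]
  · have hgg : Commute g g := Commute.refl g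
    simp only [dif_pos hgg]
    have : (⟨g, (hmemZ g).2 hgg⟩ : Subgroup.centralizer ({g} : Set G)) = γ :=
      Subtype.ext hγ.symm
    rw [this, hJγ]
    have : ((n * k : ℕ) : ℝ) ≠ 0 := by exact_mod_cast hMpos.ne'
    push_cast
    push_cast at this
    field_simp

end Vale.Agent.Lib.P184
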