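import Vale.Agent.Lib.P184.Centralizer
import Vale.Agent.Lib.P184.CentHom
import Vale.Agent.Lib.P184.AmenCent

/-!
# P184: the centralizer criterion for the vanishing of Hattori-Stallings coefficients over `ℓ¹(G)`

`e` is a `q × q` matrix with entries in `ℓ¹(G)` (absolutely summable functions `G → ℂ`) which is
idempotent for the convolution product; `ℓ` is any subadditive real function on the group `G`
(for instance a word length, or `h ↦ dist (h • o) o` for an isometric action); `g ∈ G`.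

1. If the centralizer of `g` carries a real character `φ` with `|φ| ≤ ℓ` on the centralizer and
   `φ g ≠ 0`, then `τ_C(e) = 0` for the conjugacy class `C` of `g`.
2. If `ℓ (g ^ j) ≥ c |j|` for some `c > 0` and all integers `j`, and the cyclic group generated by `g`
   has finite index in the centralizer of `g`, then `τ_C(e) = 0`.
3. If `ℓ (g ^ j) ≥ c |j|` for some `c > 0` and all integers `j`, and the centralizer of `g` is amenable (there is
   a left invariant mean `m` on its bounded real functions), then `τ_C(e) = 0`.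
-/

namespace Vale.Agent.Lib.P184.CentCrit

open scoped BigOperators
open Vale.Agent.Lib.P184

theorem centralizer_criterion {G : Type*} [Group G] {q : ℕ} (e : Matrix (Fin q) (Fin q) (G → ℂ))
    (hsum : ∀ i j, Summable fun g => ‖e i j g‖)
    (hidem : ∀ i j g, ∑ k, ∑' h, e i k h * e k j (h⁻¹ * g) = e i j g)
    (ℓ : G → ℝ) (hℓ : ∀ a b, ℓ (a * b) ≤ ℓ a + ℓ b) (g : G) :
    ((∃ φ : G → ℝ, (∀ a b, Commute a g → Commute b g → φ (a * b) = φ a + φ b) ∧
        (∀ z, Commute z g → |φ z| ≤ ℓ z) ∧ φ g ≠ 0) →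
      ∑' x : (ConjClasses.mk g).carrier, ∑ i, e i i x = 0) ∧
    ((∃ c : ℝ, 0 < c ∧ ∀ j : ℤ, c * |(j : ℝ)| ≤ ℓ (g ^ j)) →
      (Subgroup.zpowers g).relIndex (Subgroup.centralizer {g}) ≠ 0 →
      ∑' x : (ConjClasses.mk g).carrier, ∑ i, e i i x = 0) ∧
    ((∃ c : ℝ, 0 < c ∧ ∀ j : ℤ, c * |(j : ℝ)| ≤ ℓ (g ^ j)) →
      (∃ m : (Subgroup.centralizer {g} → ℝ) → ℝ,
        (∀ f h : Subgroup.centralizer {g} → ℝ, (∃ B, ∀ z, |f z| ≤ B) → (∃ B, ∀ z, |h z| ≤ B) →
          m (fun z => f z + h z) = m f + m h) ∧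
        (∀ (f : Subgroup.centralizer {g} → ℝ) (B : ℝ), (∃ B', ∀ z, |f z| ≤ B') → (∀ z, f z ≤ B) →
          m f ≤ B) ∧
        (∀ (f : Subgroup.centralizer {g} → ℝ) (a : Subgroup.centralizer {g}),
          (∃ B, ∀ z, |f z| ≤ B) → m (fun z => f (a * z)) = m f)) →
      ∑' x : (ConjClasses.mk g).carrier, ∑ i, e i i x = 0) := by
  refine ⟨fun ⟨φ, hadd, hle, hne⟩ =>
    trace_vanish_of_centralizer_hom e hsum hidem ℓ hℓ g φ hadd hle hne, ?_,
    fun ⟨c, hc0, hc⟩ ⟨m, h1, h2, h3⟩ =>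
      trace_vanish_of_amenable_centralizer e hsum hidem ℓ hℓ g c hc0 hc m h1 h2 h3⟩
  rintro ⟨c, hc0, hc⟩ hfin
  -- `g` has infinite order
  have hg : ¬ IsOfFinOrder g := by
    intro hfo
    obtain ⟨n, hn, hpow⟩ := isOfFinOrder_iff_pow_eq_one.1 hfo
    -- `ℓ 1 ≥ c * (n * k)` for all `k`
    have h1 : ∀ k : ℕ, c * ((n : ℝ) * k) ≤ ℓ 1 := by
      intro k
      have := hc ((n * k : ℕ) : ℤ)
      rw [zpow_natCast, pow_mul, hpow, one_pow] at this
      simpa [abs_of_nonneg] using this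
    obtain ⟨k, hk⟩ := exists_nat_gt (ℓ 1 / c)
    have h2 := h1 k
    have hn' : (1 : ℝ) ≤ n := by exact_mod_cast hn
    have h3 : ℓ 1 < c * k := by
      rw [div_lt_iff₀ hc0] at hk; linarith
    have hk0 : (0 : ℝ) ≤ k := Nat.cast_nonneg k
    have h4 : c * (k : ℝ) ≤ c * ((n : ℝ) * k) := by
      apply mul_le_mul_of_nonneg_left _ hc0.le
      nlinarith
    linarith
  obtain ⟨M, φ, hM, hadd, hform, hφg⟩ := exists_hom_of_finite_index g hg hfin
  have hpowle : ∀ (z : G) (n : ℕ), ℓ (z ^ (n + 1)) ≤ (n + 1 : ℝ) * ℓ z := by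
    intro z n
    induction n with
    | zero => simp
    | succ n ih =>
      have := hℓ (z ^ (n + 1)) z
      rw [← pow_succ] at this
      push_cast
      linarith
  refine trace_vanish_of_centralizer_hom e hsum hidem (fun h => ℓ h / c) ?_ g φ hadd ?_ ?_
  · intro a b
    rw [← add_div]
    exact div_le_div_of_nonneg_right (hℓ a b) hc0.le
  · intro z hz
    obtain ⟨j, hj, hφ⟩ := hform z hz
    have hM' : (0 : ℝ) < M := by exact_mod_cast hM
    obtain ⟨n, rfl⟩ : ∃ n, M = n + 1 := ⟨M - 1, by omega⟩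
    have h1 := hpowle z n
    have h2 := hc j
    rw [← hj] at h2
    rw [hφ, abs_div, abs_of_pos hM', div_le_div_iff₀ hM' hc0]
    push_cast at hM' ⊢
    nlinarith
  · rw [hφg]; exact one_ne_zero

end Vale.Agent.Lib.P184.CentCrit
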