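import Vale.Agent.Lib.P184.ClassForm

/-!
# The centralizer criterion

`ℓ` is a subadditive real function on `G`, `φ` a real character of the centralizer of `g` with
`|φ| ≤ ℓ` on the centralizer.  The McShane extension
`Ψ k = ⨅ z ∈ Z(g), φ z + ℓ (z⁻¹ k)` is equivariant for left multiplication by the centralizer and
Lipschitz for right multiplication; `c x h = Ψ (w h) - Ψ w`, `w⁻¹ g w = x`, is an exact cocycle.
-/

namespace Vale.Agent.Lib.P184

open scoped BigOperators

variable {G : Type*} [Group G]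

section

variable (ℓ : G → ℝ) (g : G) (φ : G → ℝ)

/-- the McShane extension -/
noncomputable def mcs (k : G) : ℝ := ⨅ z : {z : G // Commute z g}, φ z + ℓ ((z : G)⁻¹ * k)

variable (hℓ : ∀ a b, ℓ (a * b) ≤ ℓ a + ℓ b)
  (hadd : ∀ a b, Commute a g → Commute b g → φ (a * b) = φ a + φ b)
  (hle : ∀ z, Commute z g → |φ z| ≤ ℓ z)

include hadd in
theorem phi_one : φ 1 = 0 := by
  have := hadd 1 1 (Commute.one_left g) (Commute.one_left g)
  rw [one_mul] at this
  linarith

include hadd in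
theorem phi_inv (z : G) (hz : Commute z g) : φ z⁻¹ = -φ z := by
  have := hadd z z⁻¹ hz hz.inv_left
  rw [mul_inv_cancel, phi_one g φ hadd] at this
  linarith

include hℓ hadd hle in
theorem mcs_bdd (k : G) :
    BddBelow (Set.range fun z : {z : G // Commute z g} => φ z + ℓ ((z : G)⁻¹ * k)) := by
  refine ⟨-ℓ k⁻¹, ?_⟩
  rintro _ ⟨⟨z, hz⟩, rfl⟩
  have h1 := hℓ (z⁻¹ * k) k⁻¹
  rw [mul_assoc, mul_inv_cancel, mul_one] at h1
  have h2 := hle z⁻¹ hz.inv_left
  rw [phi_inv g φ hadd z hz, abs_neg] at h2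
  have h3 := neg_abs_le (φ z)
  simp only
  linarith

include hℓ hadd hle in
theorem mcs_left (z' : G) (hz' : Commute z' g) (k : G) :
    mcs ℓ g φ (z' * k) = φ z' + mcs ℓ g φ k := by
  have : Nonempty {z : G // Commute z g} := ⟨⟨1, Commute.one_left g⟩⟩
  apply le_antisymm
  · -- `≤`
    have : mcs ℓ g φ (z' * k) - φ z' ≤ mcs ℓ g φ k := by
      refine le_ciInf fun z => ?_
      have h := ciInf_le (mcs_bdd ℓ g φ hℓ hadd hle (z' * k))
        ⟨z' * z, hz'.mul_left z.2⟩
      simp only at h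
      rw [hadd z' z hz' z.2] at h
      have e : (z' * (z : G))⁻¹ * (z' * k) = (z : G)⁻¹ * k := by group
      rw [e] at h
      unfold mcs
      linarith
    linarith
  · have : φ z' + mcs ℓ g φ k ≤ mcs ℓ g φ (z' * k) := by
      refine le_ciInf fun z => ?_
      have h := ciInf_le (mcs_bdd ℓ g φ hℓ hadd hle k)
        ⟨z'⁻¹ * z, hz'.inv_left.mul_left z.2⟩
      simp only at h
      rw [hadd z'⁻¹ z hz'.inv_left z.2, phi_inv g φ hadd z' hz'] at h
      have e : (z'⁻¹ * (z : G))⁻¹ * k = (z : G)⁻¹ * (z' * k) := by group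
      rw [e] at h
      unfold mcs
      linarith
    exact this

include hℓ hadd hle in
theorem mcs_right_le (k h : G) : mcs ℓ g φ (k * h) ≤ mcs ℓ g φ k + ℓ h := by
  have : Nonempty {z : G // Commute z g} := ⟨⟨1, Commute.one_left g⟩⟩
  have : mcs ℓ g φ (k * h) - ℓ h ≤ mcs ℓ g φ k := by
    refine le_ciInf fun z => ?_
    have h1 := ciInf_le (mcs_bdd ℓ g φ hℓ hadd hle (k * h)) z
    have h2 := hℓ ((z : G)⁻¹ * k) h
    rw [mul_assoc] at h2
    unfold mcs
    linarith
  linarith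

include hℓ hadd hle in
theorem abs_mcs_right (k h : G) :
    |mcs ℓ g φ (k * h) - mcs ℓ g φ k| ≤ max (ℓ h) (ℓ h⁻¹) := by
  have h1 := mcs_right_le ℓ g φ hℓ hadd hle k h
  have h2 := mcs_right_le ℓ g φ hℓ hadd hle (k * h) h⁻¹
  rw [mul_assoc, mul_inv_cancel, mul_one] at h2
  rw [abs_le]
  constructor
  · have := le_max_right (ℓ h) (ℓ h⁻¹); linarith
  · have := le_max_left (ℓ h) (ℓ h⁻¹); linarith

end

/-- **The centralizer criterion.** -/
theorem trace_vanish_of_centralizer_hom {ι : Type*} [Fintype ι] [DecidableEq ι]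
    (e : Matrix ι ι (G → ℂ))
    (hsum : ∀ i j, Summable fun g => ‖e i j g‖)
    (hidem : ∀ i j g, ∑ k, ∑' h, e i k h * e k j (h⁻¹ * g) = e i j g)
    (ℓ : G → ℝ) (hℓ : ∀ a b, ℓ (a * b) ≤ ℓ a + ℓ b) (g : G) (φ : G → ℝ)
    (hadd : ∀ a b, Commute a g → Commute b g → φ (a * b) = φ a + φ b)
    (hle : ∀ z, Commute z g → |φ z| ≤ ℓ z) (hne : φ g ≠ 0) :
    ∑' x : (ConjClasses.mk g).carrier, ∑ i, e i i x = 0 := by
  classical
  -- a conjugator for every element of the class
  have hex : ∀ x : G, x ∈ (ConjClasses.mk g).carrier → ∃ w : G, w⁻¹ * g * w = x := by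
    intro x hx
    rw [ConjClasses.mem_carrier_iff_mk_eq, ConjClasses.mk_eq_mk_iff_isConj, isConj_comm,
      isConj_iff] at hx
    obtain ⟨w, hw⟩ := hx
    exact ⟨w⁻¹, by rw [inv_inv]; exact hw⟩
  let W : G → G := fun x => if hx : x ∈ (ConjClasses.mk g).carrier then (hex x hx).choose else 1
  have hW : ∀ x ∈ (ConjClasses.mk g).carrier, (W x)⁻¹ * g * W x = x := by
    intro x hx
    simp only [W, dif_pos hx]
    exact (hex x hx).choose_spec
  -- independence of the conjugator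
  have hind : ∀ (w w' h : G), w⁻¹ * g * w = w'⁻¹ * g * w' →
      mcs ℓ g φ (w * h) - mcs ℓ g φ w = mcs ℓ g φ (w' * h) - mcs ℓ g φ w' := by
    intro w w' h hww
    have hz : Commute (w * w'⁻¹) g := by
      have h1 : g * w = w * (w'⁻¹ * g * w') := by rw [← hww]; group
      show w * w'⁻¹ * g = g * (w * w'⁻¹)
      calc w * w'⁻¹ * g = w * (w'⁻¹ * g * w') * w'⁻¹ := by group
        _ = g * w * w'⁻¹ := by rw [← h1]
        _ = g * (w * w'⁻¹) := by group
    have e1 : w * h = (w * w'⁻¹) * (w' * h) := by group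
    have e2 : w = (w * w'⁻¹) * w' := by group
    have a1 := mcs_left ℓ g φ hℓ hadd hle (w * w'⁻¹) hz (w' * h)
    have a2 := mcs_left ℓ g φ hℓ hadd hle (w * w'⁻¹) hz w'
    rw [← e1] at a1
    rw [← e2] at a2
    linarith
  refine trace_vanish_of_class_cocycle e hsum hidem (ConjClasses.mk g)
    (fun x h => mcs ℓ g φ (W x * h) - mcs ℓ g φ (W x)) ?_ ?_ ?_
  · intro x hx h k
    have hx' : h⁻¹ * x * h ∈ (ConjClasses.mk g).carrier := (conj_mem_carrier _ x h).2 hx
    have hc : (W (h⁻¹ * x * h))⁻¹ * g * W (h⁻¹ * x * h) = (W x * h)⁻¹ * g * (W x * h) := by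
      rw [hW _ hx']
      have := hW x hx
      calc h⁻¹ * x * h = h⁻¹ * ((W x)⁻¹ * g * W x) * h := by rw [this]
        _ = (W x * h)⁻¹ * g * (W x * h) := by group
    have := hind (W (h⁻¹ * x * h)) (W x * h) k hc
    rw [this, ← mul_assoc]
    ring
  · intro h
    exact ⟨max (ℓ h) (ℓ h⁻¹), fun x _ => abs_mcs_right ℓ g φ hℓ hadd hle (W x) h⟩
  · refine ⟨g, ConjClasses.mem_carrier_mk, ?_⟩
    have hg := hW g ConjClasses.mem_carrier_mk
    have e1 : W g * g = g * W g := by
      calc W g * g = W g * ((W g)⁻¹ * g * W g) := by rw [hg]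
        _ = g * W g := by group
    rw [e1, mcs_left ℓ g φ hℓ hadd hle g (Commute.refl g)]
    simpa using hne

end Vale.Agent.Lib.P184
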