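import Vale.Agent.Lib.P184.Cocycle

/-!
# The vanishing criterion for a conjugacy class
-/

namespace Vale.Agent.Lib.P184

open scoped BigOperators

set_option linter.unusedSectionVars false

variable {G : Type*} [Group G] {ι : Type*} [Fintype ι] [DecidableEq ι]

theorem conj_mem_carrier (C : ConjClasses G) (x h : G) :
    h⁻¹ * x * h ∈ C.carrier ↔ x ∈ C.carrier := by
  rw [ConjClasses.mem_carrier_iff_mk_eq, ConjClasses.mem_carrier_iff_mk_eq]
  have : ConjClasses.mk (h⁻¹ * x * h) = ConjClasses.mk x := by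
    rw [ConjClasses.mk_eq_mk_iff_isConj, isConj_comm, isConj_iff]
    exact ⟨h⁻¹, by simp⟩
  rw [this]

theorem mul_mem_carrier_comm (C : ConjClasses G) (h k : G) :
    h * k ∈ C.carrier ↔ k * h ∈ C.carrier := by
  have := conj_mem_carrier C (h * k) h
  rw [← this]
  simp [mul_assoc]

theorem trace_vanish_of_class_cocycle (e : Matrix ι ι (G → ℂ))
    (hsum : ∀ i j, Summable fun g => ‖e i j g‖)
    (hidem : ∀ i j g, ∑ k, ∑' h, e i k h * e k j (h⁻¹ * g) = e i j g)
    (C : ConjClasses G) (c : G → G → ℝ)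
    (hcocycle : ∀ x ∈ C.carrier, ∀ h k, c x (h * k) = c x h + c (h⁻¹ * x * h) k)
    (hbdd : ∀ h, ∃ B, ∀ x ∈ C.carrier, |c x h| ≤ B)
    (hne : ∃ x ∈ C.carrier, c x x ≠ 0) :
    ∑' x : C.carrier, ∑ i, e i i x = 0 := by
  classical
  obtain ⟨x₀, hx₀, hx₀ne⟩ := hne
  -- the diagonal value is constant on the class
  have hdiag : ∀ x ∈ C.carrier, ∀ h, c (h⁻¹ * x * h) (h⁻¹ * x * h) = c x x := by
    intro x hx h
    have h1 := hcocycle x hx h (h⁻¹ * x * h)
    have h2 := hcocycle x hx x h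
    have e1 : h * (h⁻¹ * x * h) = x * h := by group
    have e2 : x⁻¹ * x * x = x := by group
    rw [e1] at h1
    rw [e2] at h2
    linarith
  have hconst : ∀ x ∈ C.carrier, c x x = c x₀ x₀ := by
    intro x hx
    rw [ConjClasses.mem_carrier_iff_mk_eq] at hx hx₀
    have : IsConj x₀ x := by
      rw [← ConjClasses.mk_eq_mk_iff_isConj, hx, hx₀]
    obtain ⟨k, hk⟩ := isConj_iff.1 this
    have := hdiag x₀ (ConjClasses.mem_carrier_iff_mk_eq.2 hx₀) k⁻¹
    rw [inv_inv, hk] at this
    exact this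
  refine trace_vanish_of_cocycle e hsum hidem C.carrier (mul_mem_carrier_comm C)
    (fun x h => if x ∈ C.carrier then c x h else 0) ?_ ?_ (c x₀ x₀) ?_ hx₀ne
  · intro x h k
    by_cases hx : x ∈ C.carrier
    · have hx' : h⁻¹ * x * h ∈ C.carrier := (conj_mem_carrier C x h).2 hx
      simp only [hx, hx', if_true]
      exact hcocycle x hx h k
    · have hx' : ¬ (h⁻¹ * x * h ∈ C.carrier) := fun h' => hx ((conj_mem_carrier C x h).1 h')
      simp [hx, hx']
  · intro h
    obtain ⟨B, hB⟩ := hbdd h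
    refine ⟨max B 0, fun x => ?_⟩
    by_cases hx : x ∈ C.carrier
    · simp only [hx, if_true]
      exact (hB x hx).trans (le_max_left _ _)
    · simp [hx]
  · intro x hx
    simp only [hx, if_true]
    exact hconst x hx

end Vale.Agent.Lib.P184
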