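import Vale.Agent.Lib.P184.Twist

/-!
# Vanishing of the Hattori-Stallings coefficient in the presence of a bounded cocycle
-/

namespace Vale.Agent.Lib.P184

open scoped BigOperators Topology

set_option linter.unusedSectionVars false

variable {G : Type*} [Group G] {ι : Type*} [Fintype ι] [DecidableEq ι]

/-- the unimodular kernel `exp (i t c)` -/
noncomputable def uexp (c : G → G → ℝ) (t : ℝ) : G → G → ℂ :=
  fun x h => Complex.exp (Complex.I * ((t * c x h : ℝ) : ℂ))

theorem norm_uexp (c : G → G → ℝ) (t : ℝ) (x h : G) : ‖uexp c t x h‖ ≤ 1 :=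
  le_of_eq (Complex.norm_exp_I_mul_ofReal _)

theorem uexp_cocycle (c : G → G → ℝ) (hc : ∀ x h k, c x (h * k) = c x h + c (h⁻¹ * x * h) k)
    (t : ℝ) (x h k : G) : uexp c t x (h * k) = uexp c t x h * uexp c t (h⁻¹ * x * h) k := by
  unfold uexp
  rw [← Complex.exp_add, hc]
  congr 1
  push_cast
  ring

theorem uexp_zero (c : G → G → ℝ) (x h : G) : uexp c 0 x h = 1 := by
  simp [uexp]

theorem norm_uexp_sub_le (c : G → G → ℝ) (t : ℝ) (x h : G) (B : ℝ) (hB : |c x h| ≤ B) :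
    ‖uexp c t x h - uexp c 0 x h‖ ≤ min 2 (|t| * B) := by
  rw [uexp_zero]
  apply le_min
  · calc ‖uexp c t x h - 1‖ ≤ ‖uexp c t x h‖ + ‖(1 : ℂ)‖ := norm_sub_le _ _
      _ ≤ 1 + 1 := by
        have := norm_uexp c t x h
        simp only [norm_one]
        linarith
      _ = 2 := by norm_num
  · unfold uexp
    refine (Real.norm_exp_I_mul_ofReal_sub_one_le).trans ?_
    rw [Real.norm_eq_abs, abs_mul]
    exact mul_le_mul_of_nonneg_left hB (abs_nonneg _)

theorem tendsto_bound (a : G → ℂ) (ha : Summable fun g => ‖a g‖) (B : G → ℝ)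
    (hB : ∀ h, 0 ≤ B h) :
    Filter.Tendsto (fun t : ℝ => ∑' h, min 2 (|t| * B h) * ‖a h‖) (𝓝 0) (𝓝 0) := by
  have h0 : (0 : ℝ) = ∑' h : G, (0 : ℝ) := by simp
  rw [h0]
  refine tendsto_tsum_of_dominated_convergence (bound := fun h => 2 * ‖a h‖) (ha.mul_left 2) ?_ ?_
  · intro h
    have hcont : Continuous fun t : ℝ => min 2 (|t| * B h) * ‖a h‖ := by fun_prop
    have := hcont.tendsto 0
    simpa using this
  · refine Filter.Eventually.of_forall fun t h => ?_
    rw [Real.norm_eq_abs, abs_mul, abs_norm]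
    refine mul_le_mul_of_nonneg_right ?_ (norm_nonneg _)
    rw [abs_of_nonneg (le_min (by norm_num) (mul_nonneg (abs_nonneg _) (hB h)))]
    exact min_le_left _ _

theorem exp_ne_one_of_small {θ : ℝ} (h0 : θ ≠ 0) (h1 : -(2 * Real.pi) < θ)
    (h2 : θ < 2 * Real.pi) : Complex.exp (Complex.I * (θ : ℂ)) ≠ 1 := by
  intro h
  have hre := congrArg Complex.re h
  rw [mul_comm, Complex.exp_ofReal_mul_I_re, Complex.one_re] at hre
  exact h0 ((Real.cos_eq_one_iff_of_lt_of_lt h1 h2).1 hre)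

/-- **Vanishing criterion** (global form).  If `c` is a real cocycle for the conjugation action
which is bounded in the point variable and takes a nonzero constant value `c₀` on the diagonal
of the conjugation invariant set `S`, then the `S`-coefficient of the trace of every idempotent
matrix over `ℓ¹(G)` vanishes. -/
theorem trace_vanish_of_cocycle (e : Matrix ι ι (G → ℂ))
    (hsum : ∀ i j, Summable fun g => ‖e i j g‖)
    (hidem : ∀ i j g, ∑ k, ∑' h, e i k h * e k j (h⁻¹ * g) = e i j g)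
    (S : Set G) (hS : ∀ h k : G, h * k ∈ S ↔ k * h ∈ S)
    (c : G → G → ℝ) (hc : ∀ x h k, c x (h * k) = c x h + c (h⁻¹ * x * h) k)
    (hb : ∀ h, ∃ B, ∀ x, |c x h| ≤ B)
    (c₀ : ℝ) (hc0 : ∀ x ∈ S, c x x = c₀) (hne : c₀ ≠ 0) :
    ∑' x : S, ∑ i, e i i x = 0 := by
  choose B hB using hb
  have hB0 : ∀ h, 0 ≤ B h := fun h => (abs_nonneg _).trans (hB h 1)
  -- the bound tends to zero
  have ht : Filter.Tendsto (fun t : ℝ => ∑ i, ∑ j, ∑' h, min 2 (|t| * B h) * ‖e i j h‖)
      (𝓝 0) (𝓝 0) := by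
    have h := tendsto_finsetSum (Finset.univ : Finset ι) fun i _ =>
      tendsto_finsetSum (Finset.univ : Finset ι) fun j _ =>
        tendsto_bound (e i j) (hsum i j) B hB0
    simpa using h
  have hev1 : ∀ᶠ t : ℝ in 𝓝 0, ∑ i, ∑ j, ∑' h, min 2 (|t| * B h) * ‖e i j h‖ < 1 :=
    ht.eventually (gt_mem_nhds (by norm_num))
  have hcont : Filter.Tendsto (fun t : ℝ => t * c₀) (𝓝 0) (𝓝 0) := by
    have : Continuous fun t : ℝ => t * c₀ := by fun_prop
    simpa using this.tendsto 0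
  have hpi : 0 < 2 * Real.pi := by positivity
  have hev2 : ∀ᶠ t : ℝ in 𝓝 0, t * c₀ < 2 * Real.pi := hcont.eventually (gt_mem_nhds hpi)
  have hev3 : ∀ᶠ t : ℝ in 𝓝 0, -(2 * Real.pi) < t * c₀ :=
    hcont.eventually (lt_mem_nhds (by linarith))
  have hev : ∀ᶠ t : ℝ in 𝓝[>] 0, (∑ i, ∑ j, ∑' h, min 2 (|t| * B h) * ‖e i j h‖ < 1 ∧
      t * c₀ < 2 * Real.pi ∧ -(2 * Real.pi) < t * c₀) ∧ 0 < t :=
    ((hev1.and (hev2.and hev3)).filter_mono nhdsWithin_le_nhds).and self_mem_nhdsWithin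
  obtain ⟨t, ⟨h1, h2, h3⟩, htpos⟩ := hev.exists
  have hclose : mnrm (twistM e hsum (uexp c t) (norm_uexp c t)
      - twistM e hsum (uexp c 0) (norm_uexp c 0)) < 1 :=
    lt_of_le_of_lt (mnrm_twistM_sub_le e hsum _ _ _ _ (fun h => min 2 (|t| * B h))
      (fun h => min_le_left _ _) (fun x h => norm_uexp_sub_le c t x h (B h) (hB h x))) h1
  have heq := mtr_eq_of_close hS
    (twistM_idem e hsum hidem (uexp c 0) (norm_uexp c 0) (uexp_cocycle c hc 0))
    (twistM_idem e hsum hidem (uexp c t) (norm_uexp c t) (uexp_cocycle c hc t)) hclose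
  rw [mtr_twistM e hsum (uexp c t) _ S (Complex.exp (Complex.I * ((t * c₀ : ℝ) : ℂ)))
      (fun x hx => by simp only [uexp, hc0 x hx]),
    mtr_twistM e hsum (uexp c 0) _ S 1 (fun x _ => uexp_zero c x x), one_mul] at heq
  have hne1 := exp_ne_one_of_small (mul_ne_zero htpos.ne' hne) h3 h2
  have : (Complex.exp (Complex.I * ((t * c₀ : ℝ) : ℂ)) - 1) * ∑' x : S, ∑ i, e i i x = 0 := by
    rw [sub_mul, heq, one_mul, sub_self]
  rcases mul_eq_zero.1 this with h | h
  · exact absurd (sub_eq_zero.1 h) hne1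
  · exact h

end Vale.Agent.Lib.P184
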