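import Vale.Agent.Lib.P184.ClassForm

/-!
# Classes detected by a real character of a finite index subgroup
-/

namespace Vale.Agent.Lib.P184

open scoped BigOperators

set_option linter.unusedSectionVars false

variable {G : Type*} [Group G]

/-- An element of infinite order in an abelianization is detected by a real character. -/
theorem exists_real_character {H : Type*} [Group H] (g : H)
    (hg : ¬ IsOfFinOrder (Abelianization.of g)) :
    ∃ ψ : H → ℝ, (∀ a b, ψ (a * b) = ψ a + ψ b) ∧ ψ g ≠ 0 := by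
  set A := Additive (Abelianization H)
  set a : A := Additive.ofMul (Abelianization.of g) with ha
  have hinj : Function.Injective (LinearMap.toSpanSingleton ℤ A a) := by
    have h1 := injective_zpow_iff_not_isOfFinOrder.2 hg
    intro m n hmn
    apply h1
    simp only [LinearMap.toSpanSingleton_apply] at hmn
    have h2 : Additive.toMul (m • a) = Additive.toMul (n • a) := by rw [hmn]
    rw [toMul_zsmul, toMul_zsmul] at h2
    exact h2
  obtain ⟨h, hh⟩ := Module.Baer.extension_property (Module.Baer.of_divisible ℝ)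
    (LinearMap.toSpanSingleton ℤ A a) hinj (LinearMap.toSpanSingleton ℤ ℝ 1)
  refine ⟨fun x => h (Additive.ofMul (Abelianization.of x)), ?_, ?_⟩
  · intro x y
    simp only [map_mul, ofMul_mul, map_add]
  · have h1 := congrArg (fun f => f 1) hh
    simp only [LinearMap.comp_apply, LinearMap.toSpanSingleton_apply, one_smul] at h1
    change h a ≠ 0
    rw [h1]
    exact one_ne_zero

section

variable (H : Subgroup G)

/-- the chosen representative of a coset -/
noncomputable def rep (q : G ⧸ H) : G := Quotient.out q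

theorem rep_mk (q : G ⧸ H) : ((rep H q : G) : G ⧸ H) = q := QuotientGroup.out_eq' q

/-- the coset cocycle with values in `H` -/
noncomputable def sig (h : G) (q : G ⧸ H) : G := (rep H (h • q))⁻¹ * h * rep H q

theorem sig_mem (h : G) (q : G ⧸ H) : sig H h q ∈ H := by
  unfold sig
  rw [mul_assoc, ← QuotientGroup.eq, rep_mk]
  conv_lhs => rw [← rep_mk H q]
  rfl

theorem sig_mul (h k : G) (q : G ⧸ H) : sig H (h * k) q = sig H h (k • q) * sig H k q := by
  unfold sig
  rw [mul_smul]
  group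

theorem mul_rep (k : G) (q : G ⧸ H) : k * rep H q = rep H (k • q) * sig H k q := by
  unfold sig
  group

end


section

variable (H : Subgroup G) (ψ : H → ℝ)

/-- extension of `ψ` by zero -/
noncomputable def ext (x : G) : ℝ := by
  classical exact if hx : x ∈ H then ψ ⟨x, hx⟩ else 0

theorem ext_of_mem {x : G} (hx : x ∈ H) : ext H ψ x = ψ ⟨x, hx⟩ := by
  unfold ext; simp [hx]

variable (hψ : ∀ a b, ψ (a * b) = ψ a + ψ b)

include hψ in
theorem ext_mul {a b : G} (ha : a ∈ H) (hb : b ∈ H) :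
    ext H ψ (a * b) = ext H ψ a + ext H ψ b := by
  rw [ext_of_mem H ψ ha, ext_of_mem H ψ hb, ext_of_mem H ψ (H.mul_mem ha hb), ← hψ]
  rfl

include hψ in
theorem ext_one : ext H ψ 1 = 0 := by
  have := ext_mul H ψ hψ H.one_mem H.one_mem
  rw [mul_one] at this
  linarith

include hψ in
theorem ext_conj {z η : G} (hz : z ∈ H) (hη : η ∈ H) :
    ext H ψ (η * z * η⁻¹) = ext H ψ z := by
  have h1 := ext_mul H ψ hψ (H.mul_mem hη hz) (H.inv_mem hη)
  have h2 := ext_mul H ψ hψ hη hz
  have h3 := ext_mul H ψ hψ hη (H.inv_mem hη)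
  rw [mul_inv_cancel, ext_one H ψ hψ] at h3
  linarith

/-- the `H`-conjugates of `g` -/
def HC (g : G) : Set G := {y | ∃ η ∈ H, y = η * g * η⁻¹}

theorem HC_conj {g y σ : G} (hσ : σ ∈ H) : σ⁻¹ * y * σ ∈ HC H g ↔ y ∈ HC H g := by
  constructor
  · rintro ⟨η, hη, h⟩
    refine ⟨σ * η, H.mul_mem hσ hη, ?_⟩
    have : y = σ * (σ⁻¹ * y * σ) * σ⁻¹ := by group
    rw [this, h]; group
  · rintro ⟨η, hη, h⟩
    refine ⟨σ⁻¹ * η, H.mul_mem (H.inv_mem hσ) hη, ?_⟩
    rw [h]; group

/-- the cosets whose representative conjugates `x` into the `H`-class of `g` -/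
def PP (g x : G) : Set (G ⧸ H) := {q | (rep H q)⁻¹ * x * rep H q ∈ HC H g}

theorem mem_PP_conj (g y k : G) (q : G ⧸ H) :
    q ∈ PP H g (k⁻¹ * y * k) ↔ k • q ∈ PP H g y := by
  unfold PP
  simp only [Set.mem_ofPred_eq]
  have : (rep H q)⁻¹ * (k⁻¹ * y * k) * rep H q
      = (sig H k q)⁻¹ * ((rep H (k • q))⁻¹ * y * rep H (k • q)) * sig H k q := by
    have h := mul_rep H k q
    calc (rep H q)⁻¹ * (k⁻¹ * y * k) * rep H q
        = (k * rep H q)⁻¹ * y * (k * rep H q) := by group
      _ = _ := by rw [h]; group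
  rw [this, HC_conj H (sig_mem H k q)]

variable [H.FiniteIndex]

attribute [local instance] Subgroup.fintypeQuotientOfFiniteIndex

open Classical in
/-- the induced cocycle -/
noncomputable def cc (g x h : G) : ℝ :=
  ∑ q : G ⧸ H, if q ∈ PP H g (h⁻¹ * x * h) then ext H ψ (sig H h q) else 0

include hψ in
theorem cc_cocycle (g x h k : G) :
    cc H ψ g x (h * k) = cc H ψ g x h + cc H ψ g (h⁻¹ * x * h) k := by
  classical
  unfold cc
  have e1 : (h * k)⁻¹ * x * (h * k) = k⁻¹ * (h⁻¹ * x * h) * k := by group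
  rw [e1]
  have h1 : ∀ q : G ⧸ H, (if q ∈ PP H g (k⁻¹ * (h⁻¹ * x * h) * k)
        then ext H ψ (sig H (h * k) q) else 0)
      = (if k • q ∈ PP H g (h⁻¹ * x * h) then ext H ψ (sig H h (k • q)) else 0)
        + (if q ∈ PP H g (k⁻¹ * (h⁻¹ * x * h) * k) then ext H ψ (sig H k q) else 0) := by
    intro q
    by_cases hq : q ∈ PP H g (k⁻¹ * (h⁻¹ * x * h) * k)
    · have hq' := (mem_PP_conj H g _ k q).1 hq
      simp only [hq, hq', if_true]
      rw [sig_mul, ext_mul H ψ hψ (sig_mem H _ _) (sig_mem H _ _)]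
    · have hq' : ¬ (k • q ∈ PP H g (h⁻¹ * x * h)) := fun h' => hq ((mem_PP_conj H g _ k q).2 h')
      simp [hq, hq']
  simp_rw [h1]
  rw [Finset.sum_add_distrib]
  congr 1
  exact Fintype.sum_equiv (MulAction.toPerm k)
    (fun q => if k • q ∈ PP H g (h⁻¹ * x * h) then ext H ψ (sig H h (k • q)) else 0)
    (fun q => if q ∈ PP H g (h⁻¹ * x * h) then ext H ψ (sig H h q) else 0) (fun q => rfl)

theorem cc_bdd (g h : G) : ∃ B, ∀ x, |cc H ψ g x h| ≤ B := by
  classical
  refine ⟨∑ q : G ⧸ H, |ext H ψ (sig H h q)|, fun x => ?_⟩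
  unfold cc
  refine (Finset.abs_sum_le_sum_abs _ _).trans (Finset.sum_le_sum fun q _ => ?_)
  by_cases hq : q ∈ PP H g (h⁻¹ * x * h)
  · simp [hq]
  · simp [hq]

include hψ in
theorem cc_diag {g : G} (hg : g ∈ H) (hne : ext H ψ g ≠ 0) : cc H ψ g g g ≠ 0 := by
  classical
  unfold cc
  have e1 : g⁻¹ * g * g = g := by group
  rw [e1]
  have h1 : ∀ q : G ⧸ H, (if q ∈ PP H g g then ext H ψ (sig H g q) else 0)
      = (if q ∈ PP H g g then ext H ψ g else 0) := by
    intro q
    by_cases hq : q ∈ PP H g g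
    · simp only [hq, if_true]
      obtain ⟨η, hη, hz⟩ := hq
      have hzH : (rep H q)⁻¹ * g * rep H q ∈ H := by
        rw [hz]; exact H.mul_mem (H.mul_mem hη hg) (H.inv_mem hη)
      have hfix : g • q = q := by
        conv_lhs => rw [← rep_mk H q]
        conv_rhs => rw [← rep_mk H q]
        change ((g * rep H q : G) : G ⧸ H) = _
        rw [eq_comm, QuotientGroup.eq, ← mul_assoc]
        exact hzH
      have : sig H g q = η * g * η⁻¹ := by
        unfold sig
        rw [hfix, hz]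
      rw [this, ext_conj H ψ hψ hg hη]
    · simp [hq]
  simp_rw [h1]
  rw [← Finset.sum_filter, Finset.sum_const, nsmul_eq_mul]
  refine mul_ne_zero ?_ hne
  have hmem : ((1 : G) : G ⧸ H) ∈ PP H g g := by
    have hr : rep H ((1 : G) : G ⧸ H) ∈ H := by
      have := rep_mk H ((1 : G) : G ⧸ H)
      rw [eq_comm, QuotientGroup.eq] at this
      simpa using this
    refine ⟨(rep H ((1 : G) : G ⧸ H))⁻¹, H.inv_mem hr, by group⟩
  have : 0 < (Finset.filter (fun q => q ∈ PP H g g) Finset.univ).card :=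
    Finset.card_pos.2 ⟨_, Finset.mem_filter.2 ⟨Finset.mem_univ _, hmem⟩⟩
  exact_mod_cast this.ne'

end

/-- **Virtual first homology criterion.** -/
theorem trace_vanish_of_finiteIndex {ι : Type*} [Fintype ι] [DecidableEq ι]
    (e : Matrix ι ι (G → ℂ))
    (hsum : ∀ i j, Summable fun g => ‖e i j g‖)
    (hidem : ∀ i j g, ∑ k, ∑' h, e i k h * e k j (h⁻¹ * g) = e i j g)
    (H : Subgroup G) [H.FiniteIndex] (g : H) (hg : ¬ IsOfFinOrder (Abelianization.of g)) :
    ∑' x : (ConjClasses.mk (g : G)).carrier, ∑ i, e i i x = 0 := by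
  obtain ⟨ψ, hψ, hne⟩ := exists_real_character g hg
  refine trace_vanish_of_class_cocycle e hsum hidem (ConjClasses.mk (g : G)) (cc H ψ (g : G))
    (fun x _ h k => cc_cocycle H ψ hψ g x h k) ?_ ?_
  · intro h
    obtain ⟨B, hB⟩ := cc_bdd H ψ (g : G) h
    exact ⟨B, fun x _ => hB x⟩
  · refine ⟨g, ConjClasses.mem_carrier_mk, cc_diag H ψ hψ g.2 ?_⟩
    rw [ext_of_mem H ψ g.2]
    exact hne

end Vale.Agent.Lib.P184
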