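import Mathlib

/-!
# Traces of nearby idempotents agree

For idempotents `e f` of a ring and a trace `T`, `T ((f - e) ^ (2 n + 1)) = T (f - e)`.
Hence a trace bounded by a submultiplicative function `N` takes the same value on `e` and `f`
as soon as `N (f - e) < 1`.
-/

namespace Vale.Agent.Lib.P184

theorem trace_odd_pow {S : Type*} [Ring S] (T : S →+ ℂ) (hT : ∀ a b, T (a * b) = T (b * a))
    {e f : S} (he : e * e = e) (hf : f * f = f) (n : ℕ) :
    T ((f - e) ^ (2 * n + 1)) = T (f - e) := by
  set A := f - e with hA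
  set B := 1 - f - e with hB
  have h1 : A * A + B * B = 1 := by
    simp only [hA, hB]
    have : (f - e) * (f - e) + (1 - f - e) * (1 - f - e)
        = 1 + 2 * (f * f - f) + 2 * (e * e - e) := by noncomm_ring
    rw [this, he, hf]; simp
  have h2 : B * A = - (A * B) := by
    simp only [hA, hB]
    have : (1 - f - e) * (f - e) + (f - e) * (1 - f - e)
        = - 2 * (f * f - f) + 2 * (e * e - e) := by noncomm_ring
    rw [he, hf] at this
    simp only [sub_self, mul_zero, add_zero] at this
    exact eq_neg_of_add_eq_zero_left this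
  have h3 : ∀ k : ℕ, B * A ^ (2 * k + 1) = - (A ^ (2 * k + 1) * B) := by
    intro k
    induction k with
    | zero => simpa using h2
    | succ k ih =>
      have : A ^ (2 * (k + 1) + 1) = A ^ (2 * k + 1) * A * A := by
        rw [show 2 * (k + 1) + 1 = (2 * k + 1) + 1 + 1 by ring, pow_succ, pow_succ]
      rw [this, ← mul_assoc, ← mul_assoc, ih]
      have e1 : -(A ^ (2 * k + 1) * B) * A * A = - (A ^ (2 * k + 1) * (B * A) * A) := by
        noncomm_ring
      rw [e1, h2]
      have e2 : -(A ^ (2 * k + 1) * -(A * B) * A) = A ^ (2 * k + 1) * A * (B * A) := by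
        noncomm_ring
      rw [e2, h2]
      noncomm_ring
  have h4 : ∀ k : ℕ, T (A ^ (2 * k + 1) * B * B) = 0 := by
    intro k
    have a1 : T (A ^ (2 * k + 1) * B * B) = T (B * (A ^ (2 * k + 1) * B)) := hT _ _
    have a2 : B * (A ^ (2 * k + 1) * B) = - (A ^ (2 * k + 1) * B * B) := by
      rw [← mul_assoc, h3]; noncomm_ring
    rw [a2, map_neg] at a1
    have a3 : (2 : ℂ) * T (A ^ (2 * k + 1) * B * B) = 0 := by
      linear_combination a1
    simpa using a3
  induction n with
  | zero => simp
  | succ n ih =>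
    rw [← ih]
    have : A ^ (2 * n + 1) = A ^ (2 * (n + 1) + 1) + A ^ (2 * n + 1) * B * B := by
      have e1 : A ^ (2 * (n + 1) + 1) = A ^ (2 * n + 1) * (A * A) := by
        rw [show 2 * (n + 1) + 1 = (2 * n + 1) + 1 + 1 by ring, pow_succ, pow_succ, mul_assoc]
      rw [e1, mul_assoc, ← mul_add, h1, mul_one]
    conv_rhs => rw [this]
    rw [map_add, h4, add_zero]

theorem trace_eq_of_close {S : Type*} [Ring S] (T : S →+ ℂ) (hT : ∀ a b, T (a * b) = T (b * a))
    (N : S → ℝ) (hN0 : ∀ a, 0 ≤ N a) (hN : ∀ a b, N (a * b) ≤ N a * N b)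
    (K : ℝ) (hK : ∀ a, ‖T a‖ ≤ K * N a)
    {e f : S} (he : e * e = e) (hf : f * f = f) (hlt : N (f - e) < 1) : T f = T e := by
  have hpow : ∀ k : ℕ, N ((f - e) ^ (k + 1)) ≤ N (f - e) ^ (k + 1) := by
    intro k
    induction k with
    | zero => simp
    | succ k ih =>
      rw [pow_succ, pow_succ (N (f - e))]
      exact (hN _ _).trans (mul_le_mul_of_nonneg_right ih (hN0 _))
  have hK0 : 0 ≤ K ∨ N (f - e) = 0 := by
    by_contra hcon
    push Not at hcon
    have h1 := hK (f - e)
    have h2 : 0 < N (f - e) := lt_of_le_of_ne (hN0 _) (Ne.symm hcon.2)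
    have h3 : K * N (f - e) < 0 := mul_neg_of_neg_of_pos hcon.1 h2
    linarith [norm_nonneg (T (f - e))]
  have hzero : T (f - e) = 0 := by
    rcases hK0 with hK0 | h0
    · have hb : ∀ n : ℕ, ‖T (f - e)‖ ≤ K * N (f - e) ^ (2 * n + 1) := by
        intro n
        rw [← trace_odd_pow T hT he hf n]
        exact (hK _).trans (mul_le_mul_of_nonneg_left (hpow _) hK0)
      have ht : Filter.Tendsto (fun n : ℕ => K * N (f - e) ^ (2 * n + 1)) Filter.atTop
          (nhds (K * 0)) := by
        apply Filter.Tendsto.const_mul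
        have h1 := tendsto_pow_atTop_nhds_zero_of_lt_one (hN0 (f - e)) hlt
        exact h1.comp (Filter.tendsto_atTop_mono (fun n => by simp only [id]; omega) Filter.tendsto_id)
      rw [mul_zero] at ht
      have := ge_of_tendsto' ht hb
      exact norm_le_zero_iff.mp this
    · have := hK (f - e)
      rw [h0, mul_zero] at this
      exact norm_le_zero_iff.mp this
  rw [map_sub] at hzero
  exact sub_eq_zero.mp hzero

end Vale.Agent.Lib.P184
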