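import Mathlib

/-!
# A Banach-type kernel algebra containing the group algebra `ℓ¹(G)`

Kernels `F : G → G → ℂ` (first variable: group element, second variable: a point of `G`
on which `G` acts by conjugation) which are dominated by a summable function of the first variable.
The product is the crossed-product convolution
`(F * F') g x = ∑' h, F h x * F' (h⁻¹ * g) (h⁻¹ * x * h)`.
-/

namespace Vale.Agent.Lib.P184

open scoped BigOperators

set_option linter.unusedSectionVars false

variable {G : Type*} [Group G]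

theorem summable_shear {m m' : G → ℝ} (hm : Summable m) (hm' : Summable m')
    (h0 : 0 ≤ m) (h0' : 0 ≤ m') :
    Summable (fun p : G × G => m p.1 * m' (p.1⁻¹ * p.2)) := by
  have h := Summable.mul_of_nonneg hm hm' h0 h0'
  exact (Equiv.summable_iff
    (Equiv.prodShear (Equiv.refl G) (fun h => Equiv.mulLeft h⁻¹))).mpr h

/-- convolution of real functions -/
noncomputable def cv (m m' : G → ℝ) (g : G) : ℝ := ∑' h, m h * m' (h⁻¹ * g)

theorem summable_cv_fiber {m m' : G → ℝ} (hm : Summable m) (hm' : Summable m')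
    (h0 : 0 ≤ m) (h0' : 0 ≤ m') (g : G) : Summable (fun h => m h * m' (h⁻¹ * g)) :=
  (summable_shear hm hm' h0 h0').prod_symm.prod_factor g

theorem summable_cv {m m' : G → ℝ} (hm : Summable m) (hm' : Summable m')
    (h0 : 0 ≤ m) (h0' : 0 ≤ m') : Summable (cv m m') :=
  (summable_shear hm hm' h0 h0').prod_symm.prod

theorem tsum_cv {m m' : G → ℝ} (hm : Summable m) (hm' : Summable m')
    (h0 : 0 ≤ m) (h0' : 0 ≤ m') : ∑' g, cv m m' g = (∑' h, m h) * ∑' h, m' h := by
  unfold cv
  rw [Summable.tsum_comm (f := fun h g => m h * m' (h⁻¹ * g)) (summable_shear hm hm' h0 h0')]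
  have : ∀ h, ∑' g, m h * m' (h⁻¹ * g) = m h * ∑' g, m' g := by
    intro h
    rw [tsum_mul_left]
    congr 1
    exact (Equiv.mulLeft h⁻¹).tsum_eq m'
  simp_rw [this]
  rw [tsum_mul_right]

/-- A kernel is dominated if it is bounded, uniformly in the second variable, by a summable
function of the first variable. -/
def Dominated (F : G → G → ℂ) : Prop := ∃ m : G → ℝ, Summable m ∧ ∀ h x, ‖F h x‖ ≤ m h

/-- the least dominating function -/
noncomputable def sp (F : G → G → ℂ) (h : G) : ℝ := ⨆ x, ‖F h x‖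

theorem le_sp {F : G → G → ℂ} (hF : Dominated F) (h x : G) : ‖F h x‖ ≤ sp F h := by
  obtain ⟨m, -, hm⟩ := hF
  exact le_ciSup (f := fun x => ‖F h x‖) ⟨m h, by rintro _ ⟨y, rfl⟩; exact hm h y⟩ x

theorem sp_le {F : G → G → ℂ} {h : G} {b : ℝ} (hb : ∀ x, ‖F h x‖ ≤ b) : sp F h ≤ b :=
  ciSup_le hb

theorem sp_nonneg (F : G → G → ℂ) : 0 ≤ sp F := fun _ =>
  Real.iSup_nonneg fun _ => norm_nonneg _

theorem summable_sp {F : G → G → ℂ} (hF : Dominated F) : Summable (sp F) := by
  obtain ⟨m, hm, hFm⟩ := hF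
  exact Summable.of_nonneg_of_le (sp_nonneg F) (fun h => sp_le (hFm h)) hm

/-- crossed-product convolution of kernels -/
noncomputable def kmul (F F' : G → G → ℂ) : G → G → ℂ :=
  fun g x => ∑' h, F h x * F' (h⁻¹ * g) (h⁻¹ * x * h)

theorem kmul_term_le {F F' : G → G → ℂ} (hF : Dominated F) (hF' : Dominated F') (g x h : G) :
    ‖F h x * F' (h⁻¹ * g) (h⁻¹ * x * h)‖ ≤ sp F h * sp F' (h⁻¹ * g) := by
  rw [norm_mul]
  exact mul_le_mul (le_sp hF _ _) (le_sp hF' _ _) (norm_nonneg _) (sp_nonneg F _)

theorem kmul_summable {F F' : G → G → ℂ} (hF : Dominated F) (hF' : Dominated F') (g x : G) :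
    Summable (fun h => F h x * F' (h⁻¹ * g) (h⁻¹ * x * h)) :=
  Summable.of_norm_bounded
    (summable_cv_fiber (summable_sp hF) (summable_sp hF') (sp_nonneg F) (sp_nonneg F') g)
    (kmul_term_le hF hF' g x)

theorem kmul_norm_le {F F' : G → G → ℂ} (hF : Dominated F) (hF' : Dominated F') (g x : G) :
    ‖kmul F F' g x‖ ≤ cv (sp F) (sp F') g := by
  have hs := summable_cv_fiber (summable_sp hF) (summable_sp hF') (sp_nonneg F) (sp_nonneg F') g
  exact tsum_of_norm_bounded hs.hasSum (kmul_term_le hF hF' g x)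

theorem kmul_dominated {F F' : G → G → ℂ} (hF : Dominated F) (hF' : Dominated F') :
    Dominated (kmul F F') :=
  ⟨cv (sp F) (sp F'), summable_cv (summable_sp hF) (summable_sp hF') (sp_nonneg F) (sp_nonneg F'),
    kmul_norm_le hF hF'⟩


theorem summable_triple {F F' F'' : G → G → ℂ} (hF : Dominated F) (hF' : Dominated F')
    (hF'' : Dominated F'') (g x : G) :
    Summable (Function.uncurry fun k h : G =>
      F k x * F' (k⁻¹ * h) (k⁻¹ * x * k) * F'' (h⁻¹ * g) (h⁻¹ * x * h)) := by
  have hb : ∀ y, sp F'' y ≤ ∑' z, sp F'' z := fun y =>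
    (summable_sp hF'').le_tsum y (fun z _ => sp_nonneg F'' z)
  refine Summable.of_norm_bounded
    (((summable_shear (summable_sp hF) (summable_sp hF') (sp_nonneg F) (sp_nonneg F')).mul_right
      (∑' z, sp F'' z))) ?_
  rintro ⟨k, h⟩
  simp only [Function.uncurry_apply_pair]
  rw [norm_mul, norm_mul]
  refine mul_le_mul (mul_le_mul (le_sp hF _ _) (le_sp hF' _ _) (norm_nonneg _) (sp_nonneg F _))
    ((le_sp hF'' _ _).trans (hb _)) (norm_nonneg _)
    (mul_nonneg (sp_nonneg F _) (sp_nonneg F' _))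

theorem kmul_assoc {F F' F'' : G → G → ℂ} (hF : Dominated F) (hF' : Dominated F')
    (hF'' : Dominated F'') : kmul (kmul F F') F'' = kmul F (kmul F' F'') := by
  funext g x
  have h1 : kmul (kmul F F') F'' g x
      = ∑' h, ∑' k, F k x * F' (k⁻¹ * h) (k⁻¹ * x * k) * F'' (h⁻¹ * g) (h⁻¹ * x * h) := by
    unfold kmul
    refine tsum_congr fun h => ?_
    rw [← tsum_mul_right]
  have h2 : kmul F (kmul F' F'') g x
      = ∑' k, ∑' h, F k x * F' (k⁻¹ * h) (k⁻¹ * x * k) * F'' (h⁻¹ * g) (h⁻¹ * x * h) := by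
    unfold kmul
    refine tsum_congr fun k => ?_
    rw [← tsum_mul_left]
    rw [← (Equiv.mulLeft k⁻¹).tsum_eq]
    refine tsum_congr fun h => ?_
    simp only [Equiv.coe_mulLeft, mul_inv_rev, inv_inv, mul_assoc]
    congr 3
    · group
    · group
  rw [h1, h2]
  exact Summable.tsum_comm (summable_triple hF hF' hF'' g x)


variable (G) in
/-- The additive group of dominated kernels. -/
def KAlg : AddSubgroup (G → G → ℂ) where
  carrier := {F | Dominated F}
  add_mem' := by
    rintro F F' ⟨m, hm, hF⟩ ⟨m', hm', hF'⟩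
    exact ⟨fun h => m h + m' h, hm.add hm',
      fun h x => (norm_add_le _ _).trans (add_le_add (hF h x) (hF' h x))⟩
  zero_mem' := ⟨0, summable_zero, fun h x => by simp⟩
  neg_mem' := by
    rintro F ⟨m, hm, hF⟩
    exact ⟨m, hm, fun h x => by simpa using hF h x⟩

/-- the unit kernel -/
noncomputable def kone : G → G → ℂ := by
  classical exact fun h _ => if h = 1 then 1 else 0

theorem kone_dominated : Dominated (kone : G → G → ℂ) := by
  classical
  refine ⟨fun h => if h = 1 then 1 else 0, ?_, ?_⟩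
  · exact (hasSum_ite_eq (1 : G) (1 : ℝ)).summable
  · intro h x
    unfold kone
    by_cases hh : h = 1 <;> simp [hh]

theorem kone_kmul (F : G → G → ℂ) : kmul kone F = F := by
  classical
  funext g x
  unfold kmul kone
  rw [tsum_eq_single (1 : G)]
  · simp
  · intro h hh
    simp [hh]

theorem kmul_kone (F : G → G → ℂ) : kmul F kone = F := by
  classical
  funext g x
  unfold kmul kone
  rw [tsum_eq_single g]
  · simp
  · intro h hh
    have : ¬ (h⁻¹ * g = 1) := by
      intro h1
      apply hh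
      rw [inv_mul_eq_one] at h1
      exact h1
    simp [this]

theorem kmul_add {F F' F'' : G → G → ℂ} (hF : Dominated F) (hF' : Dominated F')
    (hF'' : Dominated F'') : kmul F (F' + F'') = kmul F F' + kmul F F'' := by
  funext g x
  simp only [kmul, Pi.add_apply, mul_add]
  exact (kmul_summable hF hF' g x).tsum_add (kmul_summable hF hF'' g x)

theorem add_kmul {F F' F'' : G → G → ℂ} (hF : Dominated F) (hF' : Dominated F')
    (hF'' : Dominated F'') : kmul (F + F') F'' = kmul F F'' + kmul F' F'' := by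
  funext g x
  simp only [kmul, Pi.add_apply, add_mul]
  exact (kmul_summable hF hF'' g x).tsum_add (kmul_summable hF' hF'' g x)

noncomputable instance : Mul (KAlg G) := ⟨fun F F' => ⟨kmul F.1 F'.1, kmul_dominated F.2 F'.2⟩⟩

noncomputable instance : One (KAlg G) := ⟨⟨kone, kone_dominated⟩⟩

theorem coe_mul (F F' : KAlg G) : ((F * F' : KAlg G) : G → G → ℂ) = kmul F.1 F'.1 := rfl

theorem coe_one : ((1 : KAlg G) : G → G → ℂ) = kone := rfl

noncomputable instance : Ring (KAlg G) :=
  { (inferInstance : AddCommGroup (KAlg G)) with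
    mul := (· * ·)
    one := 1
    mul_assoc := fun a b c => Subtype.ext (kmul_assoc a.2 b.2 c.2)
    one_mul := fun a => Subtype.ext (kone_kmul a.1)
    mul_one := fun a => Subtype.ext (kmul_kone a.1)
    left_distrib := fun a b c => Subtype.ext (kmul_add a.2 b.2 c.2)
    right_distrib := fun a b c => Subtype.ext (add_kmul a.2 b.2 c.2)
    zero_mul := fun a => Subtype.ext (by funext g x; simp [coe_mul, kmul])
    mul_zero := fun a => Subtype.ext (by funext g x; simp [coe_mul, kmul]) }

/-- the norm of a dominated kernel -/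
noncomputable def nrm (F : KAlg G) : ℝ := ∑' h, sp F.1 h

theorem nrm_nonneg (F : KAlg G) : 0 ≤ nrm F := tsum_nonneg (sp_nonneg F.1)

theorem nrm_le_of_le {F : KAlg G} {m : G → ℝ} (hm : Summable m) (h : ∀ h x, ‖F.1 h x‖ ≤ m h) :
    nrm F ≤ ∑' h, m h :=
  (summable_sp F.2).tsum_le_tsum (fun g => sp_le (h g)) hm

theorem nrm_mul_le (F F' : KAlg G) : nrm (F * F') ≤ nrm F * nrm F' := by
  have h := nrm_le_of_le (F := F * F')
    (summable_cv (summable_sp F.2) (summable_sp F'.2) (sp_nonneg _) (sp_nonneg _))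
    (kmul_norm_le F.2 F'.2)
  rwa [tsum_cv (summable_sp F.2) (summable_sp F'.2) (sp_nonneg _) (sp_nonneg _)] at h

theorem nrm_add_le (F F' : KAlg G) : nrm (F + F') ≤ nrm F + nrm F' := by
  have h := nrm_le_of_le (F := F + F') ((summable_sp F.2).add (summable_sp F'.2))
    (fun h x => (norm_add_le _ _).trans (add_le_add (le_sp F.2 h x) (le_sp F'.2 h x)))
  rwa [(summable_sp F.2).tsum_add (summable_sp F'.2)] at h

theorem nrm_zero : nrm (0 : KAlg G) = 0 := by
  apply le_antisymm _ (nrm_nonneg _)
  have h := nrm_le_of_le (F := (0 : KAlg G)) (m := fun _ => 0) summable_zero (fun h x => by simp)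
  simpa using h

end Vale.Agent.Lib.P184
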