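import Vale.Agent.Lib.P184.Trace
import Vale.Agent.Lib.P184.Idem

/-!
# Matrices over the kernel algebra
-/

namespace Vale.Agent.Lib.P184

open scoped BigOperators

set_option linter.unusedSectionVars false

variable {G : Type*} [Group G] {ι : Type*} [Fintype ι] [DecidableEq ι]

theorem nrm_sum_le {κ : Type*} (s : Finset κ) (f : κ → KAlg G) :
    nrm (∑ k ∈ s, f k) ≤ ∑ k ∈ s, nrm (f k) := by
  classical
  induction s using Finset.induction_on with
  | empty => simp [nrm_zero]
  | insert a s ha ih =>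
    rw [Finset.sum_insert ha, Finset.sum_insert ha]
    exact (nrm_add_le _ _).trans (add_le_add_right ih _)

/-- the entrywise sum norm of a matrix of kernels -/
noncomputable def mnrm (M : Matrix ι ι (KAlg G)) : ℝ := ∑ i, ∑ j, nrm (M i j)

theorem mnrm_nonneg (M : Matrix ι ι (KAlg G)) : 0 ≤ mnrm M :=
  Finset.sum_nonneg fun _ _ => Finset.sum_nonneg fun _ _ => nrm_nonneg _

theorem nrm_le_mnrm (M : Matrix ι ι (KAlg G)) (i j : ι) : nrm (M i j) ≤ mnrm M := by
  unfold mnrm
  refine le_trans ?_ (Finset.single_le_sum (f := fun i => ∑ j, nrm (M i j))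
    (fun _ _ => Finset.sum_nonneg fun _ _ => nrm_nonneg _) (Finset.mem_univ i))
  exact Finset.single_le_sum (f := fun j => nrm (M i j)) (fun _ _ => nrm_nonneg _)
    (Finset.mem_univ j)

theorem mnrm_mul_le (M N : Matrix ι ι (KAlg G)) : mnrm (M * N) ≤ mnrm M * mnrm N := by
  have h1 : ∀ i j, nrm ((M * N) i j) ≤ ∑ k, nrm (M i k) * nrm (N k j) := by
    intro i j
    rw [Matrix.mul_apply]
    exact (nrm_sum_le _ _).trans (Finset.sum_le_sum fun k _ => nrm_mul_le _ _)
  have h2 : ∀ k, ∑ j, nrm (N k j) ≤ mnrm N := by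
    intro k
    exact Finset.single_le_sum (f := fun k => ∑ j, nrm (N k j))
      (fun _ _ => Finset.sum_nonneg fun _ _ => nrm_nonneg _) (Finset.mem_univ k)
  calc mnrm (M * N) ≤ ∑ i, ∑ j, ∑ k, nrm (M i k) * nrm (N k j) :=
        Finset.sum_le_sum fun i _ => Finset.sum_le_sum fun j _ => h1 i j
    _ = ∑ i, ∑ k, nrm (M i k) * ∑ j, nrm (N k j) := by
        refine Finset.sum_congr rfl fun i _ => ?_
        rw [Finset.sum_comm]
        refine Finset.sum_congr rfl fun k _ => ?_
        rw [Finset.mul_sum]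
    _ ≤ ∑ i, ∑ k, nrm (M i k) * mnrm N :=
        Finset.sum_le_sum fun i _ => Finset.sum_le_sum fun k _ =>
          mul_le_mul_of_nonneg_left (h2 k) (nrm_nonneg _)
    _ = mnrm M * mnrm N := by
        unfold mnrm
        rw [Finset.sum_mul]
        refine Finset.sum_congr rfl fun i _ => ?_
        rw [Finset.sum_mul]

/-- the trace on matrices of kernels attached to `S` -/
noncomputable def mtr (S : Set G) : Matrix ι ι (KAlg G) →+ ℂ where
  toFun M := ∑ i, tr0 S (M i i)
  map_zero' := by simp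
  map_add' M N := by simp [Finset.sum_add_distrib]

theorem mtr_apply (S : Set G) (M : Matrix ι ι (KAlg G)) : mtr S M = ∑ i, tr0 S (M i i) := rfl

theorem mtr_mul_comm {S : Set G} (hS : ∀ h k : G, h * k ∈ S ↔ k * h ∈ S)
    (M N : Matrix ι ι (KAlg G)) : mtr S (M * N) = mtr S (N * M) := by
  simp only [mtr_apply, Matrix.mul_apply, map_sum]
  rw [Finset.sum_comm]
  refine Finset.sum_congr rfl fun i _ => Finset.sum_congr rfl fun j _ => ?_
  exact tr0_mul_comm hS _ _

theorem norm_mtr_le (S : Set G) (M : Matrix ι ι (KAlg G)) : ‖mtr S M‖ ≤ 1 * mnrm M := by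
  rw [one_mul, mtr_apply]
  refine (norm_sum_le _ _).trans ?_
  unfold mnrm
  refine Finset.sum_le_sum fun i _ => ?_
  exact (norm_tr0_le S _).trans (Finset.single_le_sum (f := fun j => nrm (M i j))
    (fun _ _ => nrm_nonneg _) (Finset.mem_univ i))

/-- Idempotent matrices of kernels at distance `< 1` have the same trace. -/
theorem mtr_eq_of_close {S : Set G} (hS : ∀ h k : G, h * k ∈ S ↔ k * h ∈ S)
    {E E' : Matrix ι ι (KAlg G)} (hE : E * E = E) (hE' : E' * E' = E')
    (hlt : mnrm (E' - E) < 1) : mtr S E' = mtr S E := by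
  have h1 := mtr_mul_comm (ι := ι) hS
  have h2 := mnrm_nonneg (G := G) (ι := ι)
  have h3 := mnrm_mul_le (G := G) (ι := ι)
  have h4 := norm_mtr_le (ι := ι) S
  exact trace_eq_of_close (S := Matrix ι ι (KAlg G)) (mtr S) h1 mnrm h2 h3 1 h4 hE hE' hlt

end Vale.Agent.Lib.P184
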