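import Vale.Agent.Lib.P184.Kernel

/-!
# The trace on the kernel algebra attached to a conjugation invariant set
-/

namespace Vale.Agent.Lib.P184

open scoped BigOperators

set_option linter.unusedSectionVars false

variable {G : Type*} [Group G]

/-- the diagonal of a kernel, cut down to a set `S` -/
noncomputable def diagS (S : Set G) (F : G → G → ℂ) : G → ℂ := S.indicator (fun h => F h h)

theorem norm_diagS_le {F : G → G → ℂ} (hF : Dominated F) (S : Set G) (h : G) :
    ‖diagS S F h‖ ≤ sp F h := by
  classical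
  unfold diagS
  by_cases hh : h ∈ S
  · rw [Set.indicator_of_mem hh]; exact le_sp hF h h
  · rw [Set.indicator_of_notMem hh]; simpa using sp_nonneg F h

theorem summable_diagS {F : G → G → ℂ} (hF : Dominated F) (S : Set G) : Summable (diagS S F) :=
  Summable.of_norm_bounded (summable_sp hF) (norm_diagS_le hF S)

/-- the trace attached to `S` -/
noncomputable def tr0 (S : Set G) : KAlg G →+ ℂ where
  toFun F := ∑' h, diagS S F.1 h
  map_zero' := by
    have : diagS S ((0 : KAlg G) : G → G → ℂ) = fun _ => 0 := by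
      funext h; simp [diagS]
    rw [this, tsum_zero]
  map_add' F F' := by
    have : diagS S ((F + F' : KAlg G) : G → G → ℂ) = fun h => diagS S F.1 h + diagS S F'.1 h := by
      funext h
      simp only [diagS]
      exact congrFun (Set.indicator_add S (fun h => F.1 h h) (fun h => F'.1 h h)) h
    rw [this]
    exact (summable_diagS F.2 S).tsum_add (summable_diagS F'.2 S)

theorem tr0_apply (S : Set G) (F : KAlg G) : tr0 S F = ∑' h, diagS S F.1 h := rfl

theorem norm_tr0_le (S : Set G) (F : KAlg G) : ‖tr0 S F‖ ≤ nrm F :=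
  tsum_of_norm_bounded (summable_sp F.2).hasSum (norm_diagS_le F.2 S)

/-- the equivalence `(h, k) ↦ (h * k, h)` -/
def pairEquiv : G × G ≃ G × G where
  toFun p := (p.1 * p.2, p.1)
  invFun p := (p.2, p.2⁻¹ * p.1)
  left_inv p := by simp
  right_inv p := by simp

theorem tr0_mul (S : Set G) (F F' : KAlg G) :
    tr0 S (F * F') = ∑' p : G × G,
      S.indicator (fun _ => F.1 p.1 (p.1 * p.2) * F'.1 p.2 (p.2 * p.1)) (p.1 * p.2) := by
  classical
  set f : G × G → ℂ := fun p =>
    S.indicator (fun _ => F.1 p.2 p.1 * F'.1 (p.2⁻¹ * p.1) (p.2⁻¹ * p.1 * p.2)) p.1 with hf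
  have hsum : Summable f := by
    refine Summable.of_norm_bounded
      (summable_shear (summable_sp F.2) (summable_sp F'.2) (sp_nonneg _) (sp_nonneg _)).prod_symm ?_
    rintro ⟨g, h⟩
    simp only [hf, Prod.swap_prod_mk]
    by_cases hg : g ∈ S
    · rw [Set.indicator_of_mem hg]
      exact kmul_term_le F.2 F'.2 g g h
    · rw [Set.indicator_of_notMem hg]
      simpa using mul_nonneg (sp_nonneg F.1 h) (sp_nonneg F'.1 (h⁻¹ * g))
  have h1 : tr0 S (F * F') = ∑' g, ∑' h, f (g, h) := by
    rw [tr0_apply]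
    refine tsum_congr fun g => ?_
    simp only [hf, diagS, coe_mul]
    by_cases hg : g ∈ S
    · simp only [Set.indicator_of_mem hg]
      rfl
    · simp only [Set.indicator_of_notMem hg, tsum_zero]
  rw [h1, ← hsum.tsum_prod, ← pairEquiv.tsum_eq f]
  refine tsum_congr fun p => ?_
  simp only [hf, pairEquiv, Equiv.coe_fn_mk, inv_mul_cancel_left]

theorem tr0_mul_comm {S : Set G} (hS : ∀ h k : G, h * k ∈ S ↔ k * h ∈ S) (F F' : KAlg G) :
    tr0 S (F * F') = tr0 S (F' * F) := by
  classical
  rw [tr0_mul, tr0_mul, ← (Equiv.prodComm G G).tsum_eq]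
  refine tsum_congr fun p => ?_
  simp only [Equiv.prodComm_apply, Prod.fst_swap, Prod.snd_swap]
  by_cases hp : p.1 * p.2 ∈ S
  · rw [Set.indicator_of_mem hp, Set.indicator_of_mem ((hS _ _).1 hp), mul_comm]
  · rw [Set.indicator_of_notMem hp, Set.indicator_of_notMem (fun h => hp ((hS _ _).1 h))]

end Vale.Agent.Lib.P184
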