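import Vale.Agent.Lib.P184.Mat

/-!
# Twisting an idempotent matrix over `ℓ¹(G)` by a unimodular cocycle
-/

namespace Vale.Agent.Lib.P184

open scoped BigOperators

set_option linter.unusedSectionVars false

variable {G : Type*} [Group G] {ι : Type*} [Fintype ι] [DecidableEq ι]

/-- the kernel `(h, x) ↦ u x h * a h` -/
noncomputable def twist (a : G → ℂ) (ha : Summable fun g => ‖a g‖) (u : G → G → ℂ)
    (hu : ∀ x h, ‖u x h‖ ≤ 1) : KAlg G :=
  ⟨fun h x => u x h * a h, ⟨fun h => ‖a h‖, ha, fun h x => by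
    rw [norm_mul]; exact mul_le_of_le_one_left (norm_nonneg _) (hu x h)⟩⟩

theorem twist_apply (a : G → ℂ) (ha : Summable fun g => ‖a g‖) (u : G → G → ℂ)
    (hu : ∀ x h, ‖u x h‖ ≤ 1) (h x : G) : (twist a ha u hu).1 h x = u x h * a h := rfl

/-- the matrix of twisted kernels -/
noncomputable def twistM (e : Matrix ι ι (G → ℂ)) (hsum : ∀ i j, Summable fun g => ‖e i j g‖)
    (u : G → G → ℂ) (hu : ∀ x h, ‖u x h‖ ≤ 1) : Matrix ι ι (KAlg G) :=
  fun i j => twist (e i j) (hsum i j) u hu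

theorem coe_sum_apply {κ : Type*} (s : Finset κ) (f : κ → KAlg G) (g x : G) :
    ((∑ k ∈ s, f k : KAlg G) : G → G → ℂ) g x = ∑ k ∈ s, (f k).1 g x := by
  rw [AddSubmonoidClass.coe_finsetSum, Finset.sum_apply, Finset.sum_apply]

theorem twistM_idem (e : Matrix ι ι (G → ℂ)) (hsum : ∀ i j, Summable fun g => ‖e i j g‖)
    (hidem : ∀ i j g, ∑ k, ∑' h, e i k h * e k j (h⁻¹ * g) = e i j g)
    (u : G → G → ℂ) (hu : ∀ x h, ‖u x h‖ ≤ 1)
    (hcoc : ∀ x h k, u x (h * k) = u x h * u (h⁻¹ * x * h) k) :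
    twistM e hsum u hu * twistM e hsum u hu = twistM e hsum u hu := by
  funext i j
  apply Subtype.ext
  funext g x
  rw [Matrix.mul_apply, coe_sum_apply]
  have h1 : ∀ k, ((twistM e hsum u hu i k * twistM e hsum u hu k j : KAlg G) : G → G → ℂ) g x
      = u x g * ∑' h, e i k h * e k j (h⁻¹ * g) := by
    intro k
    rw [coe_mul, ← tsum_mul_left]
    unfold kmul
    refine tsum_congr fun h => ?_
    simp only [twistM, twist_apply]
    have : u x g = u x h * u (h⁻¹ * x * h) (h⁻¹ * g) := by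
      rw [← hcoc, mul_inv_cancel_left]
    rw [this]; ring
  simp_rw [h1]
  rw [← Finset.mul_sum, hidem]
  rfl

theorem mnrm_twistM_sub_le (e : Matrix ι ι (G → ℂ)) (hsum : ∀ i j, Summable fun g => ‖e i j g‖)
    (u u' : G → G → ℂ) (hu : ∀ x h, ‖u x h‖ ≤ 1) (hu' : ∀ x h, ‖u' x h‖ ≤ 1)
    (w : G → ℝ) (hw2 : ∀ h, w h ≤ 2) (hw : ∀ x h, ‖u' x h - u x h‖ ≤ w h) :
    mnrm (twistM e hsum u' hu' - twistM e hsum u hu) ≤ ∑ i, ∑ j, ∑' h, w h * ‖e i j h‖ := by
  unfold mnrm
  refine Finset.sum_le_sum fun i _ => Finset.sum_le_sum fun j _ => ?_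
  have hw0 : ∀ h, 0 ≤ w h := fun h => (norm_nonneg _).trans (hw 1 h)
  have hs : Summable fun h => w h * ‖e i j h‖ :=
    Summable.of_nonneg_of_le (fun h => mul_nonneg (hw0 h) (norm_nonneg _))
      (fun h => mul_le_mul_of_nonneg_right (hw2 h) (norm_nonneg _)) ((hsum i j).mul_left 2)
  refine nrm_le_of_le hs fun h x => ?_
  have : ((twistM e hsum u' hu' - twistM e hsum u hu) i j).1 h x = (u' x h - u x h) * e i j h := by
    simp only [Matrix.sub_apply, twistM]
    change (twist _ _ u' hu').1 h x - (twist _ _ u hu).1 h x = _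
    rw [twist_apply, twist_apply]; ring
  rw [this, norm_mul]
  exact mul_le_mul_of_nonneg_right (hw x h) (norm_nonneg _)

theorem mtr_twistM (e : Matrix ι ι (G → ℂ)) (hsum : ∀ i j, Summable fun g => ‖e i j g‖)
    (u : G → G → ℂ) (hu : ∀ x h, ‖u x h‖ ≤ 1) (S : Set G) (z : ℂ) (hz : ∀ x ∈ S, u x x = z) :
    mtr S (twistM e hsum u hu) = z * ∑' x : S, ∑ i, e i i x := by
  classical
  rw [mtr_apply, tsum_subtype S (fun x => ∑ i, e i i x)]
  have h1 : ∀ i, tr0 S (twistM e hsum u hu i i) = z * ∑' x, S.indicator (e i i) x := by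
    intro i
    rw [tr0_apply, ← tsum_mul_left]
    refine tsum_congr fun h => ?_
    unfold diagS
    by_cases hh : h ∈ S
    · rw [Set.indicator_of_mem hh, Set.indicator_of_mem hh]
      simp only [twistM, twist_apply, hz h hh]
    · rw [Set.indicator_of_notMem hh, Set.indicator_of_notMem hh, mul_zero]
  simp_rw [h1]
  rw [← Finset.mul_sum]
  congr 1
  have h2 : ∀ i ∈ (Finset.univ : Finset ι), Summable (S.indicator (e i i)) := by
    intro i _
    exact ((hsum i i).of_norm).indicator S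
  rw [← Summable.tsum_finsetSum h2]
  refine tsum_congr fun x => ?_
  by_cases hx : x ∈ S
  · simp [Set.indicator_of_mem hx]
  · simp [Set.indicator_of_notMem hx]

end Vale.Agent.Lib.P184
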