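import Vale.Agent.Lib.P184.ClassForm

/-!
# Elements skewering a half-space of a space with walls
-/

namespace Vale.Agent.Lib.P184

open scoped BigOperators Pointwise

set_option linter.unusedSectionVars false

variable {G : Type*} [Group G] {Y : Type*} [MulAction G Y]

/-- indicator of a set, real valued -/
noncomputable def ind (B : Set Y) (y : Y) : ℝ := by
  classical exact if y ∈ B then 1 else 0

theorem ind_of_mem {B : Set Y} {y : Y} (h : y ∈ B) : ind B y = 1 := by
  unfold ind; simp [h]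

theorem ind_of_notMem {B : Set Y} {y : Y} (h : y ∉ B) : ind B y = 0 := by
  unfold ind; simp [h]

theorem ind_smul (h : G) (B : Set Y) (y : Y) : ind (h • B) (h • y) = ind B y := by
  by_cases hy : y ∈ B
  · rw [ind_of_mem hy, ind_of_mem (Set.smul_mem_smul_set_iff.2 hy)]
  · rw [ind_of_notMem hy, ind_of_notMem (fun h' => hy (Set.smul_mem_smul_set_iff.1 h'))]

theorem abs_ind_sub_le (B : Set Y) (y y' : Y) : |ind B y - ind B y'| ≤ 1 := by
  by_cases hy : y ∈ B <;> by_cases hy' : y' ∈ B <;>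
    simp [ind_of_mem, ind_of_notMem, hy, hy']

/-- the half-spaces skewered by `x` -/
def skew (W : Set (Set Y)) (x : G) : Set (Set Y) := {B | B ∈ W ∧ x • B ⊂ B}

theorem smul_ssubset_iff (h : G) (A B : Set Y) : h • A ⊂ h • B ↔ A ⊂ B := by
  rw [ssubset_iff_subset_not_subset, ssubset_iff_subset_not_subset,
    Set.smul_set_subset_smul_set_iff, Set.smul_set_subset_smul_set_iff]

theorem smul_mem_skew {W : Set (Set Y)} (hinv : ∀ h : G, ∀ A ∈ W, h • A ∈ W) (x h : G)
    (B : Set Y) : h • B ∈ skew W x ↔ B ∈ skew W (h⁻¹ * x * h) := by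
  unfold skew
  simp only [Set.mem_ofPred_eq]
  have h1 : h • B ∈ W ↔ B ∈ W := by
    constructor
    · intro hB
      have := hinv h⁻¹ _ hB
      rwa [inv_smul_smul] at this
    · exact hinv h B
  have h2 : x • h • B ⊂ h • B ↔ (h⁻¹ * x * h) • B ⊂ B := by
    rw [← smul_ssubset_iff h ((h⁻¹ * x * h) • B) B, smul_smul, smul_smul]
    have : h * (h⁻¹ * x * h) = x * h := by group
    rw [this]
  rw [h1, h2]

open Classical in
/-- the summand of the wall cocycle -/
noncomputable def wterm (W : Set (Set Y)) (y y' : Y) (x : G) (B : Set Y) : ℝ :=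
  if B ∈ skew W x then ind B y - ind B y' else 0

theorem wterm_support (W : Set (Set Y)) (y y' : Y) (x : G) :
    Function.support (wterm W y y' x) ⊆
      {A | A ∈ W ∧ y ∈ A ∧ y' ∉ A} ∪ {A | A ∈ W ∧ y' ∈ A ∧ y ∉ A} := by
  intro B hB
  rw [Function.mem_support] at hB
  unfold wterm at hB
  by_cases hs : B ∈ skew W x
  · simp only [hs, if_true] at hB
    by_cases hy : y ∈ B <;> by_cases hy' : y' ∈ B
    · simp [ind_of_mem, hy, hy'] at hB
    · exact Or.inl ⟨hs.1, hy, hy'⟩
    · exact Or.inr ⟨hs.1, hy', hy⟩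
    · simp [ind_of_notMem, hy, hy'] at hB
  · simp [hs] at hB

/-- the wall cocycle -/
noncomputable def wc (W : Set (Set Y)) (y₀ : Y) (x h : G) : ℝ :=
  ∑ᶠ B : Set Y, wterm W y₀ (h • y₀) x B

section

variable {W : Set (Set Y)} (hinv : ∀ h : G, ∀ A ∈ W, h • A ∈ W)
  (hfin : ∀ y y' : Y, {A | A ∈ W ∧ y ∈ A ∧ y' ∉ A}.Finite)

include hfin in
theorem wterm_finite (y y' : Y) (x : G) : (Function.support (wterm W y y' x)).Finite :=
  ((hfin y y').union (hfin y' y)).subset (wterm_support W y y' x)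

include hinv hfin in
theorem wc_cocycle (y₀ : Y) (x h k : G) :
    wc W y₀ x (h * k) = wc W y₀ x h + wc W y₀ (h⁻¹ * x * h) k := by
  unfold wc
  have h1 : ∀ B, wterm W y₀ ((h * k) • y₀) x B
      = wterm W y₀ (h • y₀) x B + wterm W (h • y₀) ((h * k) • y₀) x B := by
    intro B
    unfold wterm
    by_cases hs : B ∈ skew W x
    · simp only [hs, if_true]; ring
    · simp [hs]
  simp_rw [h1]
  rw [finsum_add_distrib (wterm_finite hfin _ _ _) (wterm_finite hfin _ _ _)]
  congr 1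
  rw [← finsum_comp_equiv (MulAction.toPerm h : Equiv.Perm (Set Y))]
  refine finsum_congr fun B => ?_
  simp only [MulAction.toPerm_apply]
  unfold wterm
  by_cases hs : B ∈ skew W (h⁻¹ * x * h)
  · have hs' := (smul_mem_skew hinv x h B).2 hs
    simp only [hs, hs', if_true]
    rw [mul_smul, ind_smul, ind_smul]
  · have hs' : ¬ (h • B ∈ skew W x) := fun h' => hs ((smul_mem_skew hinv x h B).1 h')
    simp [hs, hs']

include hfin in
theorem wc_bdd (y₀ : Y) (h : G) : ∃ C, ∀ x, |wc W y₀ x h| ≤ C := by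
  classical
  set F := ((hfin y₀ (h • y₀)).union (hfin (h • y₀) y₀)).toFinset with hF
  refine ⟨F.card, fun x => ?_⟩
  unfold wc
  rw [finsum_eq_sum_of_support_subset (s := F) _ (by
    rw [hF, Set.Finite.coe_toFinset]; exact wterm_support W _ _ x)]
  refine (Finset.abs_sum_le_sum_abs _ _).trans ?_
  have : ∀ B ∈ F, |wterm W y₀ (h • y₀) x B| ≤ 1 := by
    intro B _
    unfold wterm
    by_cases hs : B ∈ skew W x
    · simp only [hs, if_true]; exact abs_ind_sub_le _ _ _
    · simp [hs]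
  calc ∑ B ∈ F, |wterm W y₀ (h • y₀) x B| ≤ ∑ _B ∈ F, (1 : ℝ) := Finset.sum_le_sum this
    _ = F.card := by simp

include hinv hfin in
theorem wc_diag {g : G} {A : Set Y} (hA : A ∈ W) (hskew : g • A ⊂ A) {y₀ : Y} (hy : y₀ ∈ A)
    (hy' : y₀ ∉ g • A) : wc W y₀ g g ≠ 0 := by
  classical
  set F := ((hfin y₀ (g • y₀)).union (hfin (g • y₀) y₀)).toFinset with hF
  unfold wc
  rw [finsum_eq_sum_of_support_subset (s := F) _ (by
    rw [hF, Set.Finite.coe_toFinset]; exact wterm_support W _ _ g)]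
  have hnonpos : ∀ B ∈ F, 0 ≤ - wterm W y₀ (g • y₀) g B := by
    intro B _
    unfold wterm
    by_cases hs : B ∈ skew W g
    · simp only [hs, if_true]
      by_cases hB : y₀ ∈ B
      · have : g • y₀ ∈ B := hs.2.subset (Set.smul_mem_smul_set_iff.2 hB)
        simp [ind_of_mem, hB, this]
      · rw [ind_of_notMem hB]
        by_cases hB' : g • y₀ ∈ B
        · simp [ind_of_mem, hB']
        · simp [ind_of_notMem, hB']
    · simp [hs]
  have hgA : g • A ∈ skew W g := ⟨hinv g A hA, (smul_ssubset_iff g _ _).2 hskew⟩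
  have hval : wterm W y₀ (g • y₀) g (g • A) = -1 := by
    unfold wterm
    simp only [hgA, if_true]
    rw [ind_of_notMem hy', ind_of_mem (Set.smul_mem_smul_set_iff.2 hy)]
    norm_num
  have hmem : g • A ∈ F := by
    rw [hF, Set.Finite.mem_toFinset]
    exact Or.inr ⟨hgA.1, Set.smul_mem_smul_set_iff.2 hy, hy'⟩
  have hpos : 0 < ∑ B ∈ F, - wterm W y₀ (g • y₀) g B :=
    Finset.sum_pos' hnonpos ⟨g • A, hmem, by rw [hval]; norm_num⟩
  rw [Finset.sum_neg_distrib] at hpos
  linarith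

end

/-- **Wall criterion.** -/
theorem trace_vanish_of_skewer {ι : Type*} [Fintype ι] [DecidableEq ι]
    (e : Matrix ι ι (G → ℂ))
    (hsum : ∀ i j, Summable fun g => ‖e i j g‖)
    (hidem : ∀ i j g, ∑ k, ∑' h, e i k h * e k j (h⁻¹ * g) = e i j g)
    (W : Set (Set Y)) (hinv : ∀ h : G, ∀ A ∈ W, h • A ∈ W)
    (hfin : ∀ y y' : Y, {A | A ∈ W ∧ y ∈ A ∧ y' ∉ A}.Finite)
    (g : G) (A : Set Y) (hA : A ∈ W) (hskew : g • A ⊂ A) :
    ∑' x : (ConjClasses.mk g).carrier, ∑ i, e i i x = 0 := by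
  obtain ⟨y₀, hy, hy'⟩ := Set.exists_of_ssubset hskew
  refine trace_vanish_of_class_cocycle e hsum hidem (ConjClasses.mk g) (wc W y₀)
    (fun x _ h k => wc_cocycle hinv hfin y₀ x h k) ?_ ?_
  · intro h
    obtain ⟨B, hB⟩ := wc_bdd hfin y₀ h
    exact ⟨B, fun x _ => hB x⟩
  · exact ⟨g, ConjClasses.mem_carrier_mk, wc_diag hinv hfin hA hskew hy hy'⟩

end Vale.Agent.Lib.P184
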